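import Crest.Agent.R271.H.Calc

/-! # Row 271, block G: definitions (owner helper53) -/

set_option autoImplicit false
set_option linter.unusedSectionVars false

open MeasureTheory Filter Topology Set
open scoped ENNReal ContDiff

noncomputable section

namespace Crest.Agent.R271

variable {n : ℕ} {M : Type} [TopologicalSpace M] [MeasurableSpace M] {A : Type} [CommRing A] [Algebra ℂ A]

/-- `∫ |F|² / g` -/
def Dom.Nm (D : Dom n M) (F : M → ℂ) (g : M → ℝ) : ℝ≥0∞ :=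
  ∫⁻ x, ENNReal.ofReal (‖F x‖ ^ 2) * (ENNReal.ofReal (g x))⁻¹ ∂D.μ

/-- there is a holomorphic `F` with `F y = 1` and `∫ |F|² / g ≤ B` -/
def Dom.Ext (D : Dom n M) (g : M → ℝ) (y : M) (B : ℝ≥0∞) : Prop := ∃ F, D.Hol F ∧ F y = 1 ∧ D.Nm F g ≤ B

/-- the tools of block H on a fixed Stein domain -/
structure HD (D : Dom n M) : Prop where
  hor : ∀ (Φ : M → ℝ) (u : M → ℂ) (h : M → ℝ), D.Psh Φ → D.Sm u → Measurable h → (∀ y, 0 ≤ h y) →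
    (∀ y ξ, ‖D.db u y ξ‖ ^ 2 ≤ h y * D.levi Φ y ξ) →
    ∫⁻ y, ENNReal.ofReal (‖u y‖ ^ 2 * Real.exp (-Φ y)) ∂D.μ ≠ ⊤ →
    ∃ F, D.Hol F ∧ ∫⁻ y, ENNReal.ofReal (‖u y - F y‖ ^ 2 * Real.exp (-Φ y)) ∂D.μ ≤
      ∫⁻ y, ENNReal.ofReal (h y * Real.exp (-Φ y)) ∂D.μ
  mv : StMV D
  mon : StMon D

/-- `1 + |w|²` -/
def Aff.Wt (S : Aff n M A) (y : M) : ℝ := 1 + ∑ i, S.sq (S.w i) y

/-- `|w - w y₀|²` -/
def Aff.dist2 (S : Aff n M A) (y₀ y : M) : ℝ := ∑ i, S.sq (S.w i - algebraMap ℂ A (S.ev y₀ (S.w i))) y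

end Crest.Agent.R271
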