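import Crest.Agent.R271.G.Meas

/-! # Row 271, block G: Hoermander with singular weights, the Guan-Zhou lemma -/

set_option autoImplicit false
set_option linter.unusedSectionVars false

open MeasureTheory Filter Topology Set
open scoped ENNReal ContDiff

noncomputable section

namespace Crest.Agent.R271

variable {n : ℕ} {M : Type} [TopologicalSpace M] [T2Space M] [SecondCountableTopology M]
  [MeasurableSpace M] [BorelSpace M] {D : Dom n M}

theorem inv_le_mul_inv {a b c : ℝ} (hc : 0 < c) (h : a ≤ c * b) :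
    (ENNReal.ofReal b)⁻¹ ≤ ENNReal.ofReal c * (ENNReal.ofReal a)⁻¹ := by
  have h1 : ENNReal.ofReal c ≠ 0 := by simpa using hc
  calc (ENNReal.ofReal b)⁻¹ = ENNReal.ofReal c * (ENNReal.ofReal c * ENNReal.ofReal b)⁻¹ := by
        rw [ENNReal.mul_inv (Or.inl h1) (Or.inl ENNReal.ofReal_ne_top), ← mul_assoc,
          ENNReal.mul_inv_cancel h1 ENNReal.ofReal_ne_top, one_mul]
    _ ≤ _ := by
        rw [← ENNReal.ofReal_mul hc.le]
        gcongr

theorem ofReal_exp_neg {a : ℝ} (ha : 0 ≤ a) (φ : ℝ) :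
    ENNReal.ofReal (a * Real.exp (-φ)) = ENNReal.ofReal a * (ENNReal.ofReal (Real.exp φ))⁻¹ := by
  rw [ENNReal.ofReal_mul ha, Real.exp_neg, ENNReal.ofReal_inv_of_pos (Real.exp_pos φ)]

theorem Dom.Nm_split {F a b : M → ℂ} {W g₁ g₂ : M → ℝ} (h : ∀ x, ‖F x‖ ≤ ‖a x‖ + ‖b x‖) (h1 : ∀ x, g₁ x ≤ W x)
    (h2 : ∀ x, g₂ x ≤ W x) (hb : Measurable b) (hg : Measurable g₂) :
    D.Nm F W ≤ 2 * D.Nm a g₁ + 2 * D.Nm b g₂ := by
  unfold Dom.Nm
  rw [← lintegral_const_mul' _ _ (by simp), ← lintegral_const_mul' _ _ (by simp),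
    ← lintegral_add_right _ (by fun_prop)]
  refine lintegral_mono fun x => ?_
  have e : ENNReal.ofReal (‖F x‖ ^ 2) ≤ 2 * ENNReal.ofReal (‖a x‖ ^ 2) + 2 * ENNReal.ofReal (‖b x‖ ^ 2) := by
    rw [← ENNReal.ofReal_ofNat, ← ENNReal.ofReal_mul zero_le_two, ← ENNReal.ofReal_mul zero_le_two,
      ← ENNReal.ofReal_add (by positivity) (by positivity)]
    refine ENNReal.ofReal_le_ofReal ?_
    nlinarith [h x, norm_nonneg (F x), sq_nonneg (‖a x‖ - ‖b x‖)]
  refine (mul_le_mul_left e _).trans ?_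
  rw [add_mul, mul_assoc, mul_assoc]
  gcongr
  exacts [h1 x, h2 x]

theorem HD.hs (H : HD D) {Φ h : ℕ → M → ℝ} {u : ℕ → M → ℂ} {u₀ : M → ℂ} {g Ψ : M → ℝ} {B : ℝ≥0∞} (hB : B ≠ ⊤)
    (hΦ : ∀ ν, D.Psh (Φ ν)) (hu : ∀ ν, D.Sm (u ν)) (hm : ∀ ν, Measurable (h ν)) (h0 : ∀ ν y, 0 ≤ h ν y)
    (hd : ∀ ν y ξ, ‖D.db (u ν) y ξ‖ ^ 2 ≤ h ν y * D.levi (Φ ν) y ξ)
    (hf : ∀ ν, ∫⁻ y, ENNReal.ofReal (‖u ν y‖ ^ 2 * Real.exp (-Φ ν y)) ∂D.μ ≠ ⊤)
    (hb : ∀ ν, ∫⁻ y, ENNReal.ofReal (h ν y * Real.exp (-Φ ν y)) ∂D.μ ≤ B)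
    (hΨ : Continuous Ψ) (h1 : ∀ ν y, Φ ν y ≤ Ψ y) (h2 : ∀ ν y, ‖u ν y‖ ≤ Ψ y)
    (t1 : ∀ y, Tendsto (fun ν => u ν y) atTop (𝓝 (u₀ y)))
    (t2 : ∀ y, Tendsto (fun ν => Real.exp (Φ ν y)) atTop (𝓝 (g y))) :
    ∃ F, D.Hol F ∧ D.Nm (fun y => u₀ y - F y) g ≤ B := by
  choose F hF hI using fun ν => H.hor (Φ ν) (u ν) (h ν) (hΦ ν) (hu ν) (hm ν) (h0 ν) (hd ν) (hf ν)
  have hc : ∀ ν, Measurable fun y => ENNReal.ofReal (‖u ν y - F ν y‖ ^ 2 * Real.exp (-Φ ν y)) := fun ν => by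
    have := (hu ν).continuous
    have := (hF ν).sm.continuous
    have := (hΦ ν).1.continuous
    exact Continuous.measurable (ENNReal.continuous_ofReal.comp (by fun_prop))
  obtain ⟨s, G, hs, hG, ht⟩ := H.mon F hF fun y => by
    obtain ⟨U, hU, hUo, hUf⟩ := Dom.exists_fin (D := D) y
    have ho : IsOpen (U ∩ {x | Ψ x < Ψ y + 1}) := hUo.inter (isOpen_lt hΨ continuous_const)
    refine ⟨_, ho.mem_nhds ⟨mem_of_mem_nhds hU, lt_add_one (Ψ y)⟩,
      ENNReal.ofReal (2 * (Ψ y + 1) ^ 2) * D.μ U + ENNReal.ofReal (2 * Real.exp (Ψ y + 1)) * B,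
      by finiteness, fun ν => ?_⟩
    refine (setLIntegral_mono' (g := fun x => ENNReal.ofReal (2 * (Ψ y + 1) ^ 2) +
      ENNReal.ofReal (2 * Real.exp (Ψ y + 1)) * ENNReal.ofReal (‖u ν x - F ν x‖ ^ 2 * Real.exp (-Φ ν x)))
      ho.measurableSet fun x hx => ?_).trans ?_
    · rw [← ENNReal.ofReal_mul (by positivity), ← ENNReal.ofReal_add (by positivity) (by positivity)]
      refine ENNReal.ofReal_le_ofReal ?_
      have a1 : ‖F ν x‖ ≤ ‖u ν x‖ + ‖u ν x - F ν x‖ := by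
        simpa using norm_sub_le (u ν x) (u ν x - F ν x)
      have a2 : ‖u ν x‖ ≤ Ψ y + 1 := (h2 ν x).trans (le_of_lt hx.2)
      have a3 : 1 ≤ Real.exp (Ψ y + 1) * Real.exp (-Φ ν x) := by
        rw [← Real.exp_add]
        exact Real.one_le_exp (by linarith [h1 ν x, (show Ψ x < Ψ y + 1 from hx.2)])
      nlinarith [norm_nonneg (F ν x), norm_nonneg (u ν x), sq_nonneg (‖u ν x‖ - ‖u ν x - F ν x‖),
        mul_le_mul_of_nonneg_left a3 (sq_nonneg ‖u ν x - F ν x‖)]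
    · rw [lintegral_add_left measurable_const, lintegral_const_mul _ (hc ν), setLIntegral_const]
      gcongr
      exacts [inter_subset_left, (setLIntegral_le_lintegral _ _).trans ((hI ν).trans (hb ν))]
  refine ⟨G, hG, le_trans (lintegral_mono fun y => ?_) ((lintegral_liminf_le (u := atTop) fun ν => hc (s ν)).trans
    (liminf_le_of_frequently_le' (Frequently.of_forall fun ν => (hI _).trans (hb _))))⟩
  by_cases c : ENNReal.ofReal (‖u₀ y - G y‖ ^ 2) = 0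
  · simp [c]
  refine (Tendsto.liminf_eq ?_).ge
  simp only [ofReal_exp_neg (sq_nonneg _)]
  exact ENNReal.Tendsto.mul (ENNReal.tendsto_ofReal (((((t1 y).comp hs.tendsto_atTop).sub
    (ht.tendstoLocallyUniformlyOn.tendsto_at (mem_univ y))).norm).pow 2)) (Or.inl c)
    (ENNReal.tendsto_ofReal ((t2 y).comp hs.tendsto_atTop)).inv (Or.inr ENNReal.ofReal_ne_top)

theorem HD.gz (H : HD D) {ε : ℝ} (hε : 0 < ε) : ∃ C : ℝ≥0∞, C ≠ ⊤ ∧ ∀ (g₀ G : M → ℝ) (F₀ : M → ℂ) (y : M),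
    D.LP g₀ → D.LP G → D.Hol F₀ → D.Sing G y → ∃ F, D.Hol F ∧ F y = F₀ y ∧
      D.Nm F (fun x => g₀ x * (1 + G x) ^ (1 + ε)) ≤ C * D.Nm ({x | G x < 1}.indicator F₀) g₀ := by
  let β : ℝ → ℝ := fun s => Real.smoothTransition (2 - 3 * s)
  have hβ : ContDiff ℝ ∞ β := Real.smoothTransition.contDiff.comp (by fun_prop)
  have hβ' : ∀ s, HasDerivAt β (deriv β s) s := fun s => (hβ.differentiable (by simp) s).hasDerivAt
  have β0 : ∀ s, 2 / 3 < s → β s = 0 := fun s hs => Real.smoothTransition.zero_of_nonpos (by linarith)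
  have β00 : ∀ s, 1 ≤ s → β s = 0 := fun s hs => β0 s (by linarith)
  have β0' : ∀ s, 1 ≤ s → deriv β s = 0 := fun s hs => by
    rw [EventuallyEq.deriv_eq (f := fun _ => 0) ((lt_mem_nhds (by linarith : 2 / 3 < s)).mono β0), deriv_const]
  have β1 : ∀ s, ‖(β s : ℂ)‖ ≤ 1 := fun s => by
    rw [Complex.norm_real, Real.norm_of_nonneg (Real.smoothTransition.nonneg _)]
    exact Real.smoothTransition.le_one _
  obtain ⟨C₀, hC₀⟩ := isCompact_Icc.exists_bound_of_continuousOn (s := Icc (0 : ℝ) 1)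
    (hβ.continuous_deriv (by simp)).continuousOn
  set c₁ := 4 * C₀ ^ 2 / ε with hc₁
  have c0 : 0 ≤ c₁ := by positivity
  refine ⟨2 + 2 * ENNReal.ofReal c₁, by finiteness, fun g₀ G F₀ y hg₀ hG hF₀ hS => ?_⟩
  set N := D.Nm ({x | G x < 1}.indicator F₀) g₀ with hN
  by_cases hN' : N = ⊤
  · exact ⟨F₀, hF₀, rfl, by rw [hN', ENNReal.mul_top (by simp)]; exact le_top⟩
  obtain ⟨φ, a1, a2, a3, -, a5⟩ := hg₀.bdd
  obtain ⟨ψ, b1, b2, b3, b4, b5⟩ := hG.bdd
  have cF := hF₀.sm.continuous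
  have cG := hG.1
  have cg := hg₀.1
  have cβ := hβ.continuous
  have G0 := hG.nonneg
  have hl : ∀ ν, D.Psh fun x => Real.log (1 + Real.exp (ψ ν x)) := fun ν => by
    simpa using (Dom.psh_const 0).logexp (b1 ν)
  have l0 : ∀ ν x, 0 ≤ ε * Real.log (1 + Real.exp (ψ ν x)) := fun ν x =>
    mul_nonneg hε.le (Real.log_nonneg (by linarith [Real.exp_pos (ψ ν x)]))
  have hΦ : ∀ ν, D.Psh fun x => φ ν x + (ψ ν x + ε * Real.log (1 + Real.exp (ψ ν x))) := fun ν =>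
    (a1 ν).add ((b1 ν).add ((hl ν).const_mul hε.le))
  have key : ∀ ν x {a c : ℝ}, 0 ≤ c → (1 ≤ Real.exp (ψ ν x) → a = 0) →
      (a * Real.exp (-ψ ν x) ≤ c * ‖F₀ x‖ ^ 2) →
      ENNReal.ofReal (a * Real.exp (-(φ ν x + (ψ ν x + ε * Real.log (1 + Real.exp (ψ ν x)))))) ≤
        ENNReal.ofReal c * (ENNReal.ofReal (‖{x | G x < 1}.indicator F₀ x‖ ^ 2) * (ENNReal.ofReal (g₀ x))⁻¹) := by
    intro ν x a c hc h1 h2
    rcases le_or_gt 1 (Real.exp (ψ ν x)) with h | h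
    · simp [h1 h]
    rw [indicator_of_mem (show x ∈ {x | G x < 1} from (b3 ν x).trans_lt h), ← mul_assoc, ← ENNReal.ofReal_mul hc]
    refine le_trans (ENNReal.ofReal_le_ofReal (q := c * ‖F₀ x‖ ^ 2 * Real.exp (-φ ν x)) ?_) ?_
    · rw [neg_add, neg_add, add_comm, Real.exp_add, Real.exp_add, ← mul_assoc, ← mul_assoc]
      refine mul_le_mul_of_nonneg_right ?_ (Real.exp_pos _).le
      have e1 := Real.exp_le_one_iff.2 (neg_nonpos.2 (l0 ν x))
      have e2 := Real.exp_pos (-(ε * Real.log (1 + Real.exp (ψ ν x))))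
      nlinarith [mul_nonneg hc (sq_nonneg ‖F₀ x‖)]
    · rw [ofReal_exp_neg (by positivity)]
      gcongr
      exact a3 ν x
  have sβ : ∀ ν, D.Sm fun x => (β (Real.exp (ψ ν x)) : ℂ) := fun ν => ((b1 ν).1.exp.comp hβ).ofReal
  obtain ⟨F, hF, hI⟩ := H.hs (Φ := fun ν x => φ ν x + (ψ ν x + ε * Real.log (1 + Real.exp (ψ ν x))))
    (h := fun ν => {x | Real.exp (ψ ν x) < 1}.indicator fun x => c₁ * Real.exp (ψ ν x) * ‖F₀ x‖ ^ 2)
    (u := fun ν x => β (Real.exp (ψ ν x)) * F₀ x) (u₀ := fun x => β (G x) * F₀ x)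
    (g := fun x => g₀ x * (G x * (1 + G x) ^ ε))
    (Ψ := fun x => max (φ 0 x + (ψ 0 x + ε * Real.log (1 + Real.exp (ψ 0 x)))) ‖F₀ x‖)
    (B := ENNReal.ofReal c₁ * N) (by finiteness) hΦ (fun ν => (sβ ν).mul hF₀.sm)
    (fun ν => by
      have := (b1 ν).1.continuous
      exact Measurable.indicator (by fun_prop) (isOpen_lt (by fun_prop) continuous_const).measurableSet)
    (fun ν x => indicator_nonneg (fun _ _ => by positivity) _)
    (fun ν x ξ => by
      rw [Dom.db_mul ((sβ ν).dif x) (hF₀.sm.dif x), Dom.db_of_hol (hF₀ x trivial), mul_zero, zero_add,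
        Dom.db_comp_real (χ := fun s => β (Real.exp s)) ((hβ' _).comp _ (Real.hasDerivAt_exp _)) ((b1 ν).1.dif x),
        Dom.levi_add (a1 ν).1 ((b1 ν).add ((hl ν).const_mul hε.le)).1,
        Dom.levi_add (b1 ν).1 ((hl ν).const_mul hε.le).1, Dom.levi_mul (hl ν).1, (Dom.levi_softplus (b1 ν).1).2]
      rcases le_or_gt 1 (Real.exp (ψ ν x)) with h | h
      · rw [indicator_of_notMem (show x ∉ {x | Real.exp (ψ ν x) < 1} from not_lt.2 h)]
        simp [β0' _ h]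
      rw [indicator_of_mem (show x ∈ {x | Real.exp (ψ ν x) < 1} from h), norm_mul, norm_mul, mul_pow, mul_pow,
        Complex.norm_real, norm_mul, mul_pow]
      have e0 := Real.exp_pos (ψ ν x)
      have l1 := (a1 ν).2 x ξ
      have l2 := (b1 ν).2 x ξ
      have e1 := pow_le_pow_left₀ (norm_nonneg _) (hC₀ _ ⟨e0.le, h.le⟩) 2
      rw [Real.norm_of_nonneg e0.le]
      set e := Real.exp (ψ ν x)
      set Q := ‖D.db (fun x => (ψ ν x : ℂ)) x ξ‖ ^ 2
      have Q0 : 0 ≤ Q := sq_nonneg _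
      have e2 : e / 4 ≤ e / (1 + e) ^ 2 := div_le_div_of_nonneg_left e0.le (by positivity) (by nlinarith)
      calc _ ≤ C₀ ^ 2 * e ^ 2 * Q * ‖F₀ x‖ ^ 2 := by gcongr
        _ = c₁ * e * ‖F₀ x‖ ^ 2 * (0 + (0 + ε * (0 + e / 4 * Q))) := by rw [hc₁]; field_simp; ring
        _ ≤ _ := by gcongr; positivity)
    (fun ν => ne_top_of_le_ne_top (b := ENNReal.ofReal (Real.exp ν) * N) (by finiteness) (by
      rw [hN, Dom.Nm, ← lintegral_const_mul' _ _ ENNReal.ofReal_ne_top]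
      refine lintegral_mono fun x => key ν x (Real.exp_pos _).le (fun h => by simp [β00 _ h]) ?_
      rw [mul_comm, norm_mul]
      exact mul_le_mul (Real.exp_le_exp.2 (neg_le.1 (b4 ν x))) (pow_le_pow_left₀ (by positivity)
        (mul_le_of_le_one_left (norm_nonneg _) (β1 _)) 2) (by positivity) (by positivity)))
    (fun ν => by
      rw [hN, Dom.Nm, ← lintegral_const_mul' _ _ ENNReal.ofReal_ne_top]
      refine lintegral_mono fun x => key ν x c0 (fun h => indicator_of_notMem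
        (show x ∉ {x | Real.exp (ψ ν x) < 1} from not_lt.2 h) _) ?_
      refine (mul_le_mul_of_nonneg_right (indicator_le_self' (fun _ _ => by positivity) x)
        (Real.exp_pos _).le).trans (le_of_eq ?_)
      rw [Real.exp_neg]
      field_simp)
    ((hΦ 0).1.continuous.max (by fun_prop))
    (fun ν x => le_max_of_le_left (by
      have := a2 ν x
      have := b2 ν x
      gcongr))
    (fun ν x => le_max_of_le_right (by
      rw [norm_mul]; exact mul_le_of_le_one_left (norm_nonneg _) (β1 _)))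
    (fun x => (((Complex.continuous_ofReal.comp cβ).tendsto _).comp (b5 x)).mul_const _)
    (fun x => by
      have e : ∀ ν, Real.exp (φ ν x + (ψ ν x + ε * Real.log (1 + Real.exp (ψ ν x)))) =
          Real.exp (φ ν x) * (Real.exp (ψ ν x) * (1 + Real.exp (ψ ν x)) ^ ε) := fun ν => by
        rw [Real.exp_add, Real.exp_add, Real.rpow_def_of_pos (by positivity), mul_comm ε]
      simp only [e]
      exact (a5 x).mul ((b5 x).mul (((b5 x).const_add 1).rpow_const (Or.inr hε.le))))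
  have cp : Continuous fun x => (1 + G x) ^ ε := (continuous_const.add cG).rpow_const fun _ => Or.inr hε.le
  have cW : Continuous fun x => g₀ x * (1 + G x) ^ ε := cg.mul cp
  have hS' : D.Sing (fun x => g₀ x * (G x * (1 + G x) ^ ε)) y := by
    refine hS.mono (C := |g₀ y * (1 + G y) ^ ε| + 1) (by positivity) ?_
    filter_upwards [cW.continuousAt.eventually_lt continuousAt_const
      ((le_abs_self _).trans_lt (lt_add_one |g₀ y * (1 + G y) ^ ε|))] with x hx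
    rw [mul_comm (G x), ← mul_assoc]
    exact mul_le_mul_of_nonneg_right hx.le (G0 x)
  have cF' := hF.sm.continuous
  have e := hS'.eq_zero (Continuous.continuousAt (by fun_prop)) (ne_top_of_le_ne_top (by finiteness) hI)
  have βy : β (G y) = 1 := Real.smoothTransition.one_of_one_le (by linarith [hS.nonpos cG.continuousAt])
  refine ⟨F, hF, by rw [← sub_eq_zero.1 e, βy]; simp, ?_⟩
  refine (Dom.Nm_split (a := {x | G x < 1}.indicator F₀) (b := fun x => β (G x) * F₀ x - F x) (g₁ := g₀)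
    (g₂ := fun x => g₀ x * (G x * (1 + G x) ^ ε)) (fun x => ?_) (fun x => ?_) (fun x => ?_)
    (Continuous.measurable (by fun_prop)) (Continuous.measurable (by fun_prop))).trans ?_
  · have a : ‖β (G x) * F₀ x‖ ≤ ‖{x | G x < 1}.indicator F₀ x‖ := by
      rcases le_or_gt 1 (G x) with h | h
      · simp [β00 _ h]
      · rw [indicator_of_mem (show x ∈ {x | G x < 1} from h), norm_mul]
        exact mul_le_of_le_one_left (norm_nonneg _) (β1 _)
    have := norm_sub_le (β (G x) * F₀ x) (β (G x) * F₀ x - F x)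
    rw [sub_sub_cancel] at this
    linarith
  · exact le_mul_of_one_le_right (hg₀.nonneg x) (Real.one_le_rpow (by linarith [G0 x]) (by linarith))
  · have := G0 x
    rw [Real.rpow_add (by positivity), Real.rpow_one]
    have := hg₀.nonneg x
    gcongr
    linarith
  · rw [add_mul, mul_assoc]
    gcongr

theorem HD.gz_ext (H : HD D) {ε K : ℝ} (hε : 0 < ε) (hK : 0 ≤ K) : ∃ C : ℝ≥0∞, C ≠ ⊤ ∧
    ∀ (g₀ G : M → ℝ) (y : M) (B : ℝ≥0∞), D.LP g₀ → D.LP G → D.Sing G y →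
      D.Ext (fun x => g₀ x * (1 + G x) ^ K) y B → D.Ext (fun x => g₀ x * (1 + G x) ^ (1 + ε)) y (C * B) := by
  obtain ⟨C, hC, h⟩ := H.gz hε
  refine ⟨C * ENNReal.ofReal (2 ^ K), by finiteness, fun g₀ G y B hg₀ hG hS ⟨F₀, h1, h2, h3⟩ => ?_⟩
  obtain ⟨F, a1, a2, a3⟩ := h g₀ G F₀ y hg₀ hG h1 hS
  refine ⟨F, a1, a2.trans h2, a3.trans ?_⟩
  rw [mul_assoc]
  refine mul_le_mul_right (le_trans ?_ (mul_le_mul_right h3 _)) _
  rw [Dom.Nm, Dom.Nm, ← lintegral_const_mul' _ _ ENNReal.ofReal_ne_top]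
  refine lintegral_mono fun x => ?_
  rcases le_or_gt 1 (G x) with h | h
  · simp [indicator_of_notMem (show x ∉ {x | G x < 1} from not_lt.2 h)]
  rw [indicator_of_mem (show x ∈ {x | G x < 1} from h), mul_left_comm]
  refine mul_le_mul_right (inv_le_mul_inv (by positivity) ?_) _
  rw [mul_comm]
  have := hG.nonneg x
  have := hg₀.nonneg x
  gcongr
  linarith

theorem Dom.Ext.mono {g g' : M → ℝ} {y : M} {B : ℝ≥0∞} (h : D.Ext g y B) (hg : ∀ x, g x ≤ g' x) :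
    D.Ext g' y B := by
  obtain ⟨F, h1, h2, h3⟩ := h
  refine ⟨F, h1, h2, le_trans (lintegral_mono fun x => ?_) h3⟩
  gcongr
  exact hg x

end Crest.Agent.R271
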