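import Crest.Agent.R271.G.Levi

/-! # Row 271, block G: closure properties of `LP`, `Mod`; the functions `Wt`, `dist2` -/

set_option autoImplicit false
set_option linter.unusedSectionVars false

open MeasureTheory Filter Topology Set
open scoped ENNReal ContDiff

noncomputable section

namespace Crest.Agent.R271

variable {n : ℕ} {M : Type} [TopologicalSpace M] [MeasurableSpace M] {D : Dom n M}

namespace Dom

theorem LP.nonneg {g : M → ℝ} (h : D.LP g) (y : M) : 0 ≤ g y := by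
  obtain ⟨-, φ, -, -, h3⟩ := h
  exact ge_of_tendsto' (h3 y) fun ν => (Real.exp_pos _).le

/-- Recipe: `φ ν = log (c + 1 / (ν + 1))`. -/
theorem lp_const {c : ℝ} (hc : 0 ≤ c) : D.LP fun _ => c := by
  have hp : ∀ ν : ℕ, 0 < c + 1 / ((ν : ℝ) + 1) := fun ν => by positivity
  refine ⟨continuous_const, fun ν _ => Real.log (c + 1 / ((ν : ℝ) + 1)), fun ν => psh_const _,
    fun y a b hab => Real.log_le_log (hp b) ?_, fun y => ?_⟩
  · have : (a : ℝ) ≤ b := by exact_mod_cast hab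
    gcongr
  · simp only [Real.exp_log (hp _)]
    simpa using tendsto_one_div_add_atTop_nhds_zero_nat.const_add c

/-- Recipe: `Psh.logexp`. -/
theorem LP.add {g h : M → ℝ} (hg : D.LP g) (hh : D.LP h) : D.LP fun y => g y + h y := by
  obtain ⟨h1, φ, h2, h3, h4⟩ := hg
  obtain ⟨k1, ψ, k2, k3, k4⟩ := hh
  refine ⟨h1.add k1, fun ν x => Real.log (Real.exp (φ ν x) + Real.exp (ψ ν x)),
    fun ν => (h2 ν).logexp (k2 ν), fun y a b hab => Real.log_le_log (by positivity) ?_, fun y => ?_⟩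
  · exact add_le_add (Real.exp_le_exp.2 (h3 y hab)) (Real.exp_le_exp.2 (k3 y hab))
  · refine ((h4 y).add (k4 y)).congr fun ν => ?_
    rw [Real.exp_log (by positivity)]

theorem LP.mul {g h : M → ℝ} (hg : D.LP g) (hh : D.LP h) : D.LP fun y => g y * h y := by
  obtain ⟨h1, φ, h2, h3, h4⟩ := hg
  obtain ⟨k1, ψ, k2, k3, k4⟩ := hh
  refine ⟨h1.mul k1, fun ν x => φ ν x + ψ ν x, fun ν => (h2 ν).add (k2 ν),
    fun y a b hab => add_le_add (h3 y hab) (k3 y hab), fun y => ?_⟩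
  refine ((h4 y).mul (k4 y)).congr fun ν => ?_
  rw [Real.exp_add]

/-- Recipe: `c * φ ν`, `Real.exp_mul`, `Filter.Tendsto.rpow_const`. -/
theorem LP.rpow {g : M → ℝ} (hg : D.LP g) {c : ℝ} (hc : 0 ≤ c) : D.LP fun y => g y ^ c := by
  obtain ⟨h1, φ, h2, h3, h4⟩ := hg
  refine ⟨h1.rpow_const fun _ => Or.inr hc, fun ν x => c * φ ν x, fun ν => (h2 ν).const_mul hc,
    fun y a b hab => mul_le_mul_of_nonneg_left (h3 y hab) hc, fun y => ?_⟩
  refine ((h4 y).rpow_const (Or.inr hc)).congr fun ν => ?_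
  rw [← Real.exp_mul, mul_comm]

theorem lp_sum {ι : Type} {s : Finset ι} {g : ι → M → ℝ} (hg : ∀ i ∈ s, D.LP (g i)) :
    D.LP fun y => ∑ i ∈ s, g i y := by
  classical
  induction s using Finset.induction_on with
  | empty => simpa using lp_const (D := D) le_rfl
  | insert a s ha ih =>
    simp only [Finset.sum_insert ha]
    exact (hg a (Finset.mem_insert_self _ _)).add (ih fun i hi => hg i (Finset.mem_insert_of_mem hi))

/-- Recipe: `levi_log_sum` with `ι = Unit`, `ε = 1 / (ν + 1)`. -/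
theorem Hol.lp_sq {f : M → ℂ} (h : D.Hol f) : D.LP fun y => ‖f y‖ ^ 2 := by
  have hp : ∀ (ν : ℕ) y, 0 < 1 / ((ν : ℝ) + 1) + ‖f y‖ ^ 2 := fun ν y => by positivity
  refine ⟨h.sm_sq.continuous, fun ν y => Real.log (1 / ((ν : ℝ) + 1) + ‖f y‖ ^ 2), fun ν => ?_,
    fun y a b hab => Real.log_le_log (hp b y) ?_, fun y => ?_⟩
  · have h1 := levi_log_sum (D := D) (ι := Unit) (f := fun _ => f) (fun _ => h)
      (ε := 1 / ((ν : ℝ) + 1)) (by positivity) (fun x => by simpa using hp ν x)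
    simp only [Finset.univ_unique, Finset.sum_singleton] at h1
    exact ⟨h1.1, fun y ξ => le_trans (by positivity) (h1.2 y ξ)⟩
  · have : (a : ℝ) ≤ b := by exact_mod_cast hab
    gcongr
  · simp only [Real.exp_log (hp _ _)]
    simpa using tendsto_one_div_add_atTop_nhds_zero_nat.add_const (‖f y‖ ^ 2)

/-- the approximants may be taken bounded below.  Recipe: `log (e^(φ ν) + e^(-ν))`, `Psh.logexp`. -/
theorem LP.bdd {g : M → ℝ} (h : D.LP g) : ∃ φ : ℕ → M → ℝ, (∀ ν, D.Psh (φ ν)) ∧ (∀ ν y, φ ν y ≤ φ 0 y) ∧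
    (∀ ν y, g y ≤ Real.exp (φ ν y)) ∧ (∀ ν : ℕ, ∀ y, -(ν : ℝ) ≤ φ ν y) ∧
    ∀ y, Tendsto (fun ν => Real.exp (φ ν y)) atTop (𝓝 (g y)) := by
  obtain ⟨-, φ, h2, h3, h4⟩ := h
  refine ⟨fun ν x => Real.log (Real.exp (φ ν x) + Real.exp (-(ν : ℝ))),
    fun ν => (h2 ν).logexp (psh_const _), fun ν y => Real.log_le_log (by positivity) ?_,
    fun ν y => ?_, fun ν y => ?_, fun y => ?_⟩
  · refine add_le_add (Real.exp_le_exp.2 (h3 y (Nat.zero_le ν))) (Real.exp_le_exp.2 ?_)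
    simp
  · rw [Real.exp_log (by positivity)]
    have h5 : Antitone fun ν => Real.exp (φ ν y) := fun a b hab => Real.exp_le_exp.2 (h3 y hab)
    exact (h5.le_of_tendsto (h4 y) ν).trans (le_add_of_nonneg_right (Real.exp_pos _).le)
  · rw [Real.le_log_iff_exp_le (by positivity)]
    exact le_add_of_nonneg_left (Real.exp_pos _).le
  · have h5 : Tendsto (fun ν : ℕ => Real.exp (-(ν : ℝ))) atTop (𝓝 0) :=
      Real.tendsto_exp_neg_atTop_nhds_zero.comp tendsto_natCast_atTop_atTop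
    have h6 := (h4 y).add h5
    rw [add_zero] at h6
    refine h6.congr fun ν => ?_
    rw [Real.exp_log (by positivity)]

end Dom

namespace Aff

variable {A : Type} [CommRing A] [Algebra ℂ A] (S : Aff n M A)

theorem sq_nonneg' (a : A) (y : M) : 0 ≤ S.sq a y := by
  unfold sq; positivity

theorem lp_sq (a : A) : S.LP (S.sq a) := (S.hol a).lp_sq

theorem d_z (j : Fin n) (y : M) (ξ : E n) : S.d (fun x => S.ev x (S.z j)) y ξ = ξ j := by
  have h1 : (fun x => S.ev x (S.z j)) =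
      fun x => (ContinuousLinearMap.proj j : E n →L[ℝ] ℂ) (S.p x) := by
    funext x; rw [← S.p_eq]; rfl
  rw [h1, Dom.d_clm _ (Dom.sm_p.dif y), Dom.d_p]
  rfl

/-- `log (1 + ∑ |f i|²)` is strictly psh if the coordinates are among the `f i` -/
theorem spsh_log {ι : Type} [Fintype ι] (f : ι → A) (hf : ∀ j, S.z j ∈ range f) :
    S.SPsh fun y => Real.log (1 + ∑ i, S.sq (f i) y) := by
  have h1 := Dom.levi_log_sum (D := S.toDom) (f := fun i y => S.ev y (f i)) (fun i => S.hol _)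
    zero_le_one (fun x => by positivity)
  refine ⟨h1.1, fun y ξ hξ => lt_of_lt_of_le ?_ (h1.2 y ξ)⟩
  obtain ⟨j, hj⟩ := Function.ne_iff.1 hξ
  obtain ⟨i, hi⟩ := hf j
  refine div_pos (mul_pos one_pos ?_) (by positivity)
  refine Finset.sum_pos' (fun _ _ => by positivity) ⟨i, Finset.mem_univ _, ?_⟩
  rw [hi, d_z]
  have : ξ j ≠ 0 := hj
  positivity

theorem sq_sub (y₀ y : M) (a : A) :
    S.sq (a - algebraMap ℂ A (S.ev y₀ a)) y = ‖S.ev y a - S.ev y₀ a‖ ^ 2 := by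
  simp [sq]

/-- closed sets on which the generators are bounded are compact -/
theorem compact_of_bdd {K : Set M} (hK : IsClosed K) (r : ℝ)
    (h : ∀ y ∈ K, ∀ i, ‖S.ev y (S.w i)‖ ≤ r) : IsCompact K := by
  refine (S.emb.isCompact_preimage (isCompact_closedBall 0 (max r 0))).of_isClosed_subset hK ?_
  intro y hy
  simp only [mem_preimage, mem_closedBall_zero_iff]
  exact (pi_norm_le_iff_of_nonneg (le_max_right _ _)).2 fun i => (h y hy i).trans (le_max_left _ _)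

theorem one_le_Wt (y : M) : 1 ≤ S.Wt y := by
  exact le_add_of_nonneg_right (Finset.sum_nonneg fun i _ => S.sq_nonneg' _ _)

theorem lp_Wt : S.LP S.Wt := by
  exact (Dom.lp_const zero_le_one).add (Dom.lp_sum fun i _ => S.lp_sq _)

/-- Recipe: `levi_log_sum` with `ε = 1`; `z j = w i` for some `i` and `d (ev · (z j)) ξ = ξ j` (`p_eq`, `d_p`,
`d_clm`). -/
theorem spsh_Wt : S.SPsh fun y => Real.log (S.Wt y) := by
  exact S.spsh_log S.w S.z_mem

/-- Recipe: `S.emb.isCompact_preimage` of a closed ball, `IsCompact.of_isClosed_subset`. -/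
theorem compact_Wt (r : ℝ) : IsCompact {y | Real.log (S.Wt y) ≤ r} := by
  refine S.compact_of_bdd (isClosed_le S.spsh_Wt.1.continuous continuous_const) (Real.exp r)
    fun y hy i => ?_
  have h0 := S.one_le_Wt y
  have h1 : S.Wt y ≤ Real.exp r := (Real.log_le_iff_le_exp (by linarith)).1 hy
  have h2 : S.sq (S.w i) y ≤ ∑ i, S.sq (S.w i) y :=
    Finset.single_le_sum (fun i _ => S.sq_nonneg' (S.w i) y) (Finset.mem_univ i)
  unfold Wt at h1
  unfold sq at h1 h2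
  nlinarith [_root_.sq_nonneg (‖S.ev y (S.w i)‖ - 1)]

theorem lp_dist2 (y₀ : M) : S.LP (S.dist2 y₀) := by
  exact Dom.lp_sum fun i _ => S.lp_sq _

theorem sm_dist2 (y₀ : M) : S.Sm (S.dist2 y₀) := by
  exact Dom.Sm.sum fun i _ => (S.hol _).sm_sq

theorem dist2_self (y₀ : M) : S.dist2 y₀ y₀ = 0 := by
  simp [dist2, sq_sub]

theorem dist2_pos {y₀ y : M} (h : y ≠ y₀) : 0 < S.dist2 y₀ y := by
  have h1 : (fun i => S.ev y (S.w i)) ≠ fun i => S.ev y₀ (S.w i) := fun e => h (S.emb.injective e)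
  obtain ⟨i, hi⟩ := Function.ne_iff.1 h1
  refine Finset.sum_pos' (fun i _ => S.sq_nonneg' _ _) ⟨i, Finset.mem_univ _, ?_⟩
  rw [sq_sub]
  have := sub_ne_zero.2 hi
  positivity

theorem le_dist2 (y₀ y : M) (i : Fin S.N) :
    ‖S.ev y (S.w i) - S.ev y₀ (S.w i)‖ ^ 2 ≤ S.dist2 y₀ y := by
  rw [← sq_sub]
  exact Finset.single_le_sum (f := fun i => S.sq (S.w i - algebraMap ℂ A (S.ev y₀ (S.w i))) y)
    (fun i _ => S.sq_nonneg' _ y) (Finset.mem_univ i)

theorem compact_dist2 (y₀ : M) (r : ℝ) : IsCompact {y | S.dist2 y₀ y ≤ r} := by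
  refine S.compact_of_bdd (isClosed_le (S.sm_dist2 y₀).continuous continuous_const)
    (1 + r + ‖fun i => S.ev y₀ (S.w i)‖) fun y hy i => ?_
  have h1 := (S.le_dist2 y₀ y i).trans hy
  have h2 : ‖S.ev y₀ (S.w i)‖ ≤ ‖fun i => S.ev y₀ (S.w i)‖ :=
    norm_le_pi_norm (fun i => S.ev y₀ (S.w i)) i
  have h3 := norm_sub_norm_le (S.ev y (S.w i)) (S.ev y₀ (S.w i))
  nlinarith [_root_.sq_nonneg (‖S.ev y (S.w i) - S.ev y₀ (S.w i)‖ - 1),
    _root_.sq_nonneg ‖S.ev y (S.w i) - S.ev y₀ (S.w i)‖]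

/-- Recipe: `S.emb.isInducing.nhds_eq_comap`, `Metric.mem_nhds_iff`, `pi_norm_lt_iff`. -/
theorem dist2_nhds {y₀ : M} {U : Set M} (hU : U ∈ 𝓝 y₀) : ∃ r, 0 < r ∧ {y | S.dist2 y₀ y ≤ r} ⊆ U := by
  rw [S.emb.isInducing.nhds_eq_comap, mem_comap] at hU
  obtain ⟨V, hV, hVU⟩ := hU
  obtain ⟨ε, hε, hb⟩ := Metric.mem_nhds_iff.1 hV
  refine ⟨(ε / 2) ^ 2, by positivity, fun y hy => hVU (hb ?_)⟩
  rw [mem_ball_iff_norm, pi_norm_lt_iff hε]
  intro i
  have h1 := (S.le_dist2 y₀ y i).trans hy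
  have h2 := (pow_le_pow_iff_left₀ (norm_nonneg _) (by positivity) two_ne_zero).1 h1
  exact h2.trans_lt (half_lt_self hε)

/-- Recipe: each `ev · (w i) ∘ (ch y₀).symm` is differentiable at `p y₀`: `HasFDerivAt.isBigO_sub`;
`‖v‖² ≤ ∑ ‖v j‖²` for the sup norm. -/
theorem dist2_le (y₀ : M) : ∃ C, 0 < C ∧ ∀ᶠ y in 𝓝 y₀,
    S.dist2 y₀ y ≤ C * ∑ i, S.sq (S.z i - algebraMap ℂ A (S.p y₀ i)) y := by
  have h1 : ∀ i, ∃ c : ℝ, 0 < c ∧ ∀ᶠ y in 𝓝 y₀,
      ‖S.ev y (S.w i) - S.ev y₀ (S.w i)‖ ≤ c * ‖S.p y - S.p y₀‖ := by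
    intro i
    obtain ⟨c, hc, h⟩ := (S.hol (S.w i) y₀ (mem_univ _)).isBigO_sub.exists_pos
    refine ⟨c, hc, ?_⟩
    filter_upwards [S.p_cont.continuousAt h.bound,
      (S.ch y₀).open_source.mem_nhds (S.ch_source y₀)] with y h2 h3
    simpa [(S.isCh y₀).symm_p h3] using h2
  choose c hc h using h1
  refine ⟨1 + ∑ i, c i ^ 2, by positivity, ?_⟩
  filter_upwards [eventually_all.2 h] with y hy
  set B := ∑ i, S.sq (S.z i - algebraMap ℂ A (S.p y₀ i)) y with hB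
  have hB0 : 0 ≤ B := Finset.sum_nonneg fun i _ => S.sq_nonneg' _ _
  have h2 : ‖S.p y - S.p y₀‖ ^ 2 ≤ B := by
    rw [← Real.le_sqrt (norm_nonneg _) hB0, pi_norm_le_iff_of_nonneg (Real.sqrt_nonneg _)]
    intro j
    rw [Real.le_sqrt (norm_nonneg _) hB0, Pi.sub_apply, S.p_eq, S.p_eq, ← sq_sub, ← S.p_eq]
    exact Finset.single_le_sum (f := fun i => S.sq (S.z i - algebraMap ℂ A (S.p y₀ i)) y)
      (fun i _ => S.sq_nonneg' _ y) (Finset.mem_univ j)
  calc S.dist2 y₀ y ≤ ∑ i, c i ^ 2 * B := by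
        refine Finset.sum_le_sum fun i _ => ?_
        rw [sq_sub]
        calc _ ≤ (c i * ‖S.p y - S.p y₀‖) ^ 2 := by gcongr; exact hy i
          _ ≤ _ := by rw [mul_pow]; gcongr
    _ ≤ _ := by rw [← Finset.sum_mul, add_mul, one_mul]; linarith

theorem mod_iff {g : M → ℝ} (h : S.Mod g) :
    ∃ C K : ℝ, 0 ≤ C ∧ 0 ≤ K ∧ ∀ y, g y ≤ C * S.Wt y ^ K := by
  obtain ⟨C, K, h⟩ := h
  refine ⟨max C 0, max K 0, le_max_right _ _, le_max_right _ _, fun y => (h y).trans ?_⟩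
  have h1 := S.one_le_Wt y
  change C * S.Wt y ^ K ≤ _
  calc C * S.Wt y ^ K ≤ max C 0 * S.Wt y ^ K := by
        gcongr
        exact le_max_left _ _
    _ ≤ _ := mul_le_mul_of_nonneg_left
        (Real.rpow_le_rpow_of_exponent_le h1 (le_max_left _ _)) (le_max_right _ _)

theorem mod_const (c : ℝ) : S.Mod fun _ => c := ⟨c, 0, fun y => by simp⟩

theorem mod_add {g h : M → ℝ} (hg : S.Mod g) (hh : S.Mod h) : S.Mod fun y => g y + h y := by
  obtain ⟨C, K, hC, -, h1⟩ := S.mod_iff hg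
  obtain ⟨C', K', hC', -, h2⟩ := S.mod_iff hh
  refine ⟨C + C', max K K', fun y => ?_⟩
  have h3 := S.one_le_Wt y
  change _ ≤ _ * S.Wt y ^ _
  rw [add_mul]
  exact add_le_add
    ((h1 y).trans (mul_le_mul_of_nonneg_left
      (Real.rpow_le_rpow_of_exponent_le h3 (le_max_left _ _)) hC))
    ((h2 y).trans (mul_le_mul_of_nonneg_left
      (Real.rpow_le_rpow_of_exponent_le h3 (le_max_right _ _)) hC'))

theorem mod_mul {g h : M → ℝ} (h0 : ∀ y, 0 ≤ g y) (h0' : ∀ y, 0 ≤ h y) (hg : S.Mod g)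
    (hh : S.Mod h) : S.Mod fun y => g y * h y := by
  obtain ⟨C, K, h1⟩ := hg
  obtain ⟨C', K', h2⟩ := hh
  refine ⟨C * C', K + K', fun y => ?_⟩
  have h3 := S.one_le_Wt y
  change _ ≤ _ * S.Wt y ^ _
  rw [Real.rpow_add (by linarith), mul_mul_mul_comm]
  exact mul_le_mul (h1 y) (h2 y) (h0' y) ((h0 y).trans (h1 y))

theorem mod_mono {g h : M → ℝ} (hle : ∀ y, g y ≤ h y) (hh : S.Mod h) : S.Mod g := by
  obtain ⟨C, K, h1⟩ := hh
  exact ⟨C, K, fun y => (hle y).trans (h1 y)⟩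

theorem mod_sq (a : A) : S.Mod (S.sq a) := by
  have ha : a ∈ Algebra.adjoin ℂ (range S.w) := by rw [S.gen]; trivial
  induction ha using Algebra.adjoin_induction with
  | mem x hx =>
    obtain ⟨i, rfl⟩ := hx
    refine ⟨1, 1, fun y => ?_⟩
    have h2 : S.sq (S.w i) y ≤ ∑ i, S.sq (S.w i) y :=
      Finset.single_le_sum (fun i _ => S.sq_nonneg' (S.w i) y) (Finset.mem_univ i)
    rw [Real.rpow_one]
    linarith
  | algebraMap r => exact S.mod_mono (fun y => by simp [sq]) (S.mod_const (‖r‖ ^ 2))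
  | add x y _ _ hx hy =>
    refine S.mod_mono (fun t => ?_) (S.mod_add (S.mod_add hx hx) (S.mod_add hy hy))
    simp only [sq, map_add]
    have h1 := pow_le_pow_left₀ (norm_nonneg _) (norm_add_le (S.ev t x) (S.ev t y)) 2
    nlinarith [_root_.sq_nonneg (‖S.ev t x‖ - ‖S.ev t y‖)]
  | mul x y _ _ hx hy =>
    refine S.mod_mono (fun t => ?_) (S.mod_mul (S.sq_nonneg' x) (S.sq_nonneg' y) hx hy)
    simp [sq, mul_pow]

/-- Recipe: the first eleven fields from the lemmas above; `mod_sq` by `Algebra.adjoin_induction` (`S.gen`);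
since `1 ≤ Wt`, `Mod g` may be taken with `0 ≤ C`, and `K` may be increased. -/
theorem stLP : StLP S := by
  refine ⟨S.lp_sq, fun c hc => Dom.lp_const hc, fun g h => Dom.LP.add, fun g h => Dom.LP.mul,
    fun g c hg hc => hg.rpow hc, fun g hg => hg.nonneg, fun a ha => ?_,
    S.spsh_log S.z fun j => ⟨j, rfl⟩, fun φ ψ h h' => ⟨h.1.add h'.1, fun y ξ hξ => ?_⟩,
    fun φ c h hc => ⟨(h.psh.const_mul hc.le).1, fun y ξ hξ => ?_⟩,
    fun φ c h hc => h.const_mul hc, S.mod_sq, S.mod_const, fun g h => S.mod_add,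
    fun g h => S.mod_mul, fun g c h0 hc hg => ?_⟩
  · have h1 := Dom.levi_log_sum (D := S.toDom) (ι := Unit) (f := fun _ y => S.ev y a)
      (fun _ => S.hol a) le_rfl (fun x => by
        have := (ha.map (S.ev x)).ne_zero
        simp only [Finset.univ_unique, Finset.sum_singleton, zero_add]
        positivity)
    simp only [Finset.univ_unique, Finset.sum_singleton, zero_add, zero_mul, zero_div] at h1
    exact h1
  · rw [Dom.levi_add h.1 h'.1]
    exact add_pos_of_pos_of_nonneg (h.2 y ξ hξ) (h'.2 y ξ)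
  · rw [Dom.levi_mul h.1]
    exact mul_pos hc (h.2 y ξ hξ)
  · obtain ⟨C, K, hC, hK, h⟩ := S.mod_iff hg
    refine ⟨C ^ c, K * c, fun y => ?_⟩
    have h1 := S.one_le_Wt y
    change _ ≤ _ * S.Wt y ^ (K * c)
    rw [Real.rpow_mul (by linarith), ← Real.mul_rpow hC (by positivity)]
    exact Real.rpow_le_rpow (h0 y) (h y) hc

end Aff

theorem hd (hH : HB) [T2Space M] [SecondCountableTopology M] [BorelSpace M] {A : Type} [CommRing A] [Algebra ℂ A]
    (S : Aff n M A) : HD S.toDom :=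
  ⟨hH.hor n M S.toDom _ S.spsh_Wt S.compact_Wt, hH.mv n M S.toDom, hH.mon n M S.toDom⟩

end Crest.Agent.R271
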