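import Crest.Agent.R271.G.Defs
import Crest.Agent.R266.SCV

/-! # Row 271, block G: Levi form computations -/

set_option autoImplicit false
set_option linter.unusedSectionVars false

open MeasureTheory Filter Topology Set
open scoped ENNReal ContDiff

noncomputable section

namespace Crest.Agent.R271

variable {n : ℕ} {M : Type} [TopologicalSpace M] [MeasurableSpace M] {D : Dom n M}

namespace Dom

theorem Hol.levi_on {f : M → ℂ} (h : D.Hol f) (y : M) :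
    DifferentiableOn ℂ (f ∘ (D.ch y).symm) (D.ch y).target := fun z hz => by
  have h1 := ((D.isCh y).comp_eq ((D.ch y).map_target hz) f).differentiableAt_iff.1 (h _ trivial)
  rw [(D.isCh y).p_symm hz] at h1
  exact h1.differentiableWithinAt

/-- Recipe: in the chart `D.ch y`, `f ∘ symm` is `DifferentiableOn ℂ` on the (open) target (`IsCh.comp_eq`), so
`R266.osgood` gives analyticity; `AnalyticAt.contDiffAt`, `restrict_scalars`. -/
theorem Hol.sm {f : M → ℂ} (h : D.Hol f) : D.Sm f := by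
  exact fun y => ((R266.osgood (D.ch y).open_target (h.levi_on y) _ (D.ch_target y)).contDiffAt).restrict_scalars ℝ

theorem hol_const (c : ℂ) : D.Hol fun _ => c := by
  exact fun _ _ => differentiableAt_const c

/-- Recipe: `R245.differentiableOn_fderiv_apply` in the chart, `d_ev`, `fderiv_restrictScalars`. -/
theorem Hol.d_apply {f : M → ℂ} (h : D.Hol f) (ξ : E n) : D.Hol fun x => D.d f x ξ := by
  intro y _
  have h0 := (D.ch y).open_target.mem_nhds (D.ch_target y)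
  refine ((R245.differentiableOn_fderiv_apply (D.ch y).open_target (h.levi_on y) ξ).differentiableAt
    h0).congr_of_eventuallyEq ?_
  filter_upwards [D.d_ev f y, h0] with z h1 h2
  have h3 := ((h.levi_on y).differentiableAt ((D.ch y).open_target.mem_nhds h2)).fderiv_restrictScalars ℝ
  exact (congrArg (fun L => L ξ) (h1.trans h3) :)

/-- Recipe: as `levi_comp` in `H/Calc.lean` (`Dif.comp` gives differentiability of `χ' ∘ φ` at `y`). -/
theorem levi_comp' {φ : M → ℝ} (h : D.Sm φ) {χ χ' : ℝ → ℝ} {c : ℝ} {y : M}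
    (h1 : ∀ x, HasDerivAt χ (χ' (φ x)) (φ x)) (h2 : HasDerivAt χ' c (φ y)) (ξ : E n) :
    D.levi (fun x => χ (φ x)) y ξ = χ' (φ y) * D.levi φ y ξ + c * ‖D.db (fun x => (φ x : ℂ)) y ξ‖ ^ 2 := by
  have k : ∀ x η, D.d (fun x => χ (φ x)) x η = χ' (φ x) * D.d φ x η := fun x η => d_comp_deriv (h1 x) (h.dif x) η
  simp only [levi, k, d_mul (Dif.comp h2.hasFDerivAt (h.dif y)).1 ((h.d_apply _).dif _), norm_db_real (h.dif y),
    d_comp_deriv h2 (h.dif y)]
  ring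

theorem Hol.sm_sq {f : M → ℂ} (h : D.Hol f) : D.Sm fun x => ‖f x‖ ^ 2 := by
  exact h.sm.comp (contDiff_norm_sq ℝ)

theorem Hol.levi_d {f : M → ℂ} (h : D.Hol f) (y : M) (ξ : E n) :
    D.d (fun x => ‖f x‖ ^ 2) y ξ = 2 * (f y * (starRingEnd ℂ) (D.d f y ξ)).re := by
  have e : (fun x => ‖f x‖ ^ 2) = fun x => Complex.reCLM (f x * (starRingEnd ℂ) (f x)) := funext fun x => by
    rw [Complex.mul_conj, Complex.normSq_eq_norm_sq, Complex.reCLM_apply, Complex.ofReal_re]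
  rw [e, d_clm _ ((h.sm.mul h.sm.conj).dif y), d_mul (h.sm.dif y) (h.sm.conj.dif y), d_conj (h.sm.dif y)]
  simp
  ring

/-- Recipe: `‖f‖² = re (f * conj f)`; `d_clm reCLM`, `d_mul`, `d_conj`, `d_of_hol` for `f` and for `d f · ξ`. -/
theorem Hol.levi_sq {f : M → ℂ} (h : D.Hol f) (y : M) (ξ : E n) :
    D.levi (fun x => ‖f x‖ ^ 2) y ξ = ‖D.d f y ξ‖ ^ 2 := by
  have s := h.sm
  have k : ∀ η, D.d (fun x => D.d (fun x => ‖f x‖ ^ 2) x η) y η = 2 * ‖D.d f y η‖ ^ 2 +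
      2 * (f y * (starRingEnd ℂ) (D.d (fun x => D.d f x η) y η)).re := fun η => by
    have h1 := d_clm Complex.reCLM ((s.mul (s.d_apply η).conj).dif y) η
    simp only [Complex.reCLM_apply] at h1
    have h2 : D.Dif (fun x => (f x * (starRingEnd ℂ) (D.d f x η)).re) y :=
      ((s.mul (s.d_apply η).conj).clm Complex.reCLM).dif y
    simp only [h.levi_d, d_mul (dif_const 2) h2, d_const, zero_apply, zero_mul, add_zero]
    rw [h1, d_mul (s.dif y) ((s.d_apply η).conj.dif y), d_conj ((s.d_apply η).dif y), Complex.mul_conj,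
      Complex.normSq_eq_norm_sq, Complex.add_re, Complex.ofReal_re]
    ring
  have k2 : D.d (fun x => D.d f x (Complex.I • ξ)) y (Complex.I • ξ) = -D.d (fun x => D.d f x ξ) y ξ := by
    simp only [d_of_hol (h _ trivial), d_mul (dif_const Complex.I) ((s.d_apply ξ).dif y), d_const, zero_apply,
      zero_mul, add_zero, d_of_hol (h.d_apply ξ y trivial), ← mul_assoc, Complex.I_mul_I, neg_one_mul]
  rw [levi, k, k, k2, d_of_hol (h y trivial)]
  simp
  ring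

theorem Hol.db_sq {f : M → ℂ} (h : D.Hol f) (y : M) (ξ : E n) :
    D.db (fun x => ((‖f x‖ ^ 2 : ℝ) : ℂ)) y ξ = f y * (starRingEnd ℂ) (D.d f y ξ) := by
  rw [db, d_ofReal (h.sm_sq.dif y), d_ofReal (h.sm_sq.dif y), h.levi_d, h.levi_d, d_of_hol (h y trivial)]
  apply Complex.ext <;> simp <;> ring

/-- Recipe: `N = ε + ∑ ‖f i‖²`, `levi_comp'` with `log`; `levi N = ∑ ‖d f_i ξ‖² =: a`, and by Cauchy-Schwarz
`‖db N‖² ≤ (N - ε) a`. -/
theorem levi_log_sum {ι : Type} [Fintype ι] {f : ι → M → ℂ} (hf : ∀ i, D.Hol (f i)) {ε : ℝ} (hε : 0 ≤ ε)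
    (hpos : ∀ x, 0 < ε + ∑ i, ‖f i x‖ ^ 2) : (D.Sm fun x => Real.log (ε + ∑ i, ‖f i x‖ ^ 2)) ∧ ∀ y ξ,
      ε * (∑ i, ‖D.d (f i) y ξ‖ ^ 2) / (ε + ∑ i, ‖f i y‖ ^ 2) ^ 2 ≤
        D.levi (fun x => Real.log (ε + ∑ i, ‖f i x‖ ^ 2)) y ξ := by
  have hN : D.Sm fun x => ε + ∑ i, ‖f i x‖ ^ 2 := (sm_const ε).add (Sm.sum fun i _ => (hf i).sm_sq)
  refine ⟨hN.comp' fun y => Real.contDiffAt_log.2 (hpos y).ne', fun y ξ => ?_⟩
  rw [levi_comp' hN (χ' := fun u => u⁻¹) (fun x => Real.hasDerivAt_log (hpos x).ne') (hasDerivAt_inv (hpos y).ne')]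
  have e1 : ∀ x, D.d (fun x => ε + ∑ i, ‖f i x‖ ^ 2) x = ∑ i, D.d (fun x => ‖f i x‖ ^ 2) x := fun x => by
    rw [d_add (dif_const ε) ((Sm.sum fun i _ => (hf i).sm_sq).dif x), d_const, zero_add,
      d_sum fun i _ => (hf i).sm_sq.dif x]
  have h1 : D.levi (fun x => ε + ∑ i, ‖f i x‖ ^ 2) y ξ = ∑ i, ‖D.d (f i) y ξ‖ ^ 2 := by
    simp only [← fun i => (hf i).levi_sq y ξ]
    simp only [levi, e1, sum_apply, d_sum fun i _ => ((hf i).sm_sq.d_apply _).dif y, ← Finset.sum_div,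
      Finset.sum_add_distrib]
  have h2 : D.db (fun x => ((ε + ∑ i, ‖f i x‖ ^ 2 : ℝ) : ℂ)) y ξ = ∑ i, f i y * (starRingEnd ℂ) (D.d (f i) y ξ) := by
    simp only [← fun i => (hf i).db_sq y ξ]
    simp only [db, d_ofReal (hN.dif y), fun i => d_ofReal ((hf i).sm_sq.dif y), e1, sum_apply, Complex.ofReal_sum,
      ← Finset.sum_div, Finset.sum_add_distrib, Finset.mul_sum]
  have h3 : ‖∑ i, f i y * (starRingEnd ℂ) (D.d (f i) y ξ)‖ ^ 2 ≤
      (∑ i, ‖f i y‖ ^ 2) * ∑ i, ‖D.d (f i) y ξ‖ ^ 2 := by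
    refine le_trans (pow_le_pow_left₀ (norm_nonneg _) (norm_sum_le _ _) 2) ?_
    simpa using Finset.sum_mul_sq_le_sq_mul_sq Finset.univ (fun i => ‖f i y‖) fun i => ‖D.d (f i) y ξ‖
  rw [h1, h2, div_le_iff₀ (pow_pos (hpos y) 2)]
  have h4 := (hpos y).ne'
  field_simp
  linarith

theorem psh_const (c : ℝ) : D.Psh fun _ => c := by
  exact ⟨sm_const c, fun y ξ => by simp [levi]⟩

theorem Psh.add {φ ψ : M → ℝ} (h : D.Psh φ) (h' : D.Psh ψ) : D.Psh fun x => φ x + ψ x := by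
  exact ⟨h.1.add h'.1, fun y ξ => by rw [levi_add h.1 h'.1]; exact add_nonneg (h.2 y ξ) (h'.2 y ξ)⟩

theorem Psh.const_mul {φ : M → ℝ} (h : D.Psh φ) {c : ℝ} (hc : 0 ≤ c) : D.Psh fun x => c * φ x := by
  exact ⟨(sm_const c).mul h.1, fun y ξ => by rw [levi_mul h.1]; exact mul_nonneg hc (h.2 y ξ)⟩

theorem SPsh.psh {φ : M → ℝ} (h : D.SPsh φ) : D.Psh φ := by
  refine ⟨h.1, fun y ξ => ?_⟩
  by_cases h0 : ξ = 0
  · simp [levi, h0]
  · exact (h.2 y ξ h0).le

/-- Recipe: `levi_comp'` with `χ u = log (1 + exp u)`, `χ' = e^u / (1 + e^u) ∈ [0, 1]`, `χ'' = e^u / (1 + e^u)²`. -/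
theorem levi_softplus {φ : M → ℝ} (h : D.Sm φ) : (D.Sm fun x => Real.log (1 + Real.exp (φ x))) ∧ ∀ y ξ,
    D.levi (fun x => Real.log (1 + Real.exp (φ x))) y ξ = Real.exp (φ y) / (1 + Real.exp (φ y)) * D.levi φ y ξ +
      Real.exp (φ y) / (1 + Real.exp (φ y)) ^ 2 * ‖D.db (fun x => (φ x : ℂ)) y ξ‖ ^ 2 := by
  have hp : ∀ u : ℝ, 1 + Real.exp u ≠ 0 := fun u => by positivity
  refine ⟨((sm_const 1).add h.exp).comp' fun y => Real.contDiffAt_log.2 (hp _), fun y ξ => ?_⟩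
  refine levi_comp' h (χ := fun u => Real.log (1 + Real.exp u)) (χ' := fun u => Real.exp u / (1 + Real.exp u))
    (fun x => ((Real.hasDerivAt_exp _).const_add 1).log (hp _)) ?_ ξ
  refine ((Real.hasDerivAt_exp _).div ((Real.hasDerivAt_exp _).const_add 1) (hp _)).congr_deriv ?_
  congr 1
  ring

/-- Recipe: `log (e^φ + e^ψ) = φ + log (1 + e^(ψ - φ))`, `levi_softplus`, `levi_add`, `levi_mul` with `c = -1`. -/
theorem Psh.logexp {φ ψ : M → ℝ} (h : D.Psh φ) (h' : D.Psh ψ) :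
    D.Psh fun x => Real.log (Real.exp (φ x) + Real.exp (ψ x)) := by
  have e : (fun x => Real.log (Real.exp (φ x) + Real.exp (ψ x))) =
      fun x => φ x + Real.log (1 + Real.exp (ψ x + -1 * φ x)) := funext fun x => by
    rw [← Real.log_exp (φ x), ← Real.log_mul (by positivity) (by positivity), Real.log_exp, mul_add, mul_one,
      ← Real.exp_add]
    congr 3
    ring
  have s := (sm_const (-1 : ℝ)).mul h.1
  obtain ⟨h1, h2⟩ := levi_softplus (h'.1.add s)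
  rw [e]
  refine ⟨h.1.add h1, fun y ξ => ?_⟩
  rw [levi_add h.1 h1, h2, levi_add h'.1 s, levi_mul h.1]
  have h3 := Real.exp_pos (ψ y + -1 * φ y)
  have h4 : Real.exp (ψ y + -1 * φ y) / (1 + Real.exp (ψ y + -1 * φ y)) ≤ 1 :=
    (div_le_one (by positivity)).2 (by linarith)
  have h5 : 0 ≤ Real.exp (ψ y + -1 * φ y) / (1 + Real.exp (ψ y + -1 * φ y)) := by positivity
  have h6 : 0 ≤ Real.exp (ψ y + -1 * φ y) / (1 + Real.exp (ψ y + -1 * φ y)) ^ 2 *
    ‖D.db (fun x => ((ψ x + -1 * φ x : ℝ) : ℂ)) y ξ‖ ^ 2 := by positivity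
  nlinarith [mul_nonneg h5 (h'.2 y ξ), mul_nonneg (sub_nonneg.2 h4) (h.2 y ξ)]

end Dom

end Crest.Agent.R271
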