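import Crest.Agent.R271.G.Meas

/-! # Row 271, block G: `Rate` and non-integrability, semicontinuity -/

set_option autoImplicit false
set_option linter.unusedSectionVars false

open MeasureTheory Filter Topology Set
open scoped ENNReal ContDiff

noncomputable section

namespace Crest.Agent.R271

variable {n : ℕ} {M : Type} [TopologicalSpace M] [T2Space M] [SecondCountableTopology M]
  [MeasurableSpace M] [BorelSpace M] {A : Type} [CommRing A] [Algebra ℂ A] {S : Aff n M A}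

theorem rate_poly_of_lt {ι : Type} {I : Finset ι} {h a : ι → ℝ} {β β' τ : ℝ} (hh : ∀ i, 0 ≤ h i)
    (ha : ∀ i ∈ I, 0 < a i) (hβ : 0 < β) (hτ : 0 ≤ τ) (hβ' : β ≤ β')
    (H : (∑ i ∈ I, h i ^ (a i)⁻¹) ^ β < Real.exp (-(β' * τ))) {i : ι} (hi : i ∈ I) :
    h i < Real.exp (-(a i) * τ) := by
  have hs : 0 ≤ ∑ i ∈ I, h i ^ (a i)⁻¹ := Finset.sum_nonneg fun j _ => Real.rpow_nonneg (hh j) _
  have h1 : Real.exp (-(β' * τ)) ≤ Real.exp (-τ) ^ β := by
    rw [← Real.exp_mul, Real.exp_le_exp]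
    nlinarith
  have h2 : ∑ i ∈ I, h i ^ (a i)⁻¹ < Real.exp (-τ) :=
    (Real.rpow_lt_rpow_iff hs (Real.exp_pos _).le hβ).1 (H.trans_le h1)
  have h3 : h i ^ (a i)⁻¹ < Real.exp (-τ) :=
    (Finset.single_le_sum (f := fun j => h j ^ (a j)⁻¹) (fun j _ => Real.rpow_nonneg (hh j) _) hi).trans_lt h2
  have h4 := Real.rpow_lt_rpow (Real.rpow_nonneg (hh i) _) h3 (ha i hi)
  rw [Real.rpow_inv_rpow (hh i) (ha i hi).ne', ← Real.exp_mul] at h4
  convert h4 using 2
  ring

theorem rate_poly_open {ι : Type} [Fintype ι] {h : ι → M → ℝ} (hh : ∀ i, Continuous (h i)) (p : ι → Prop)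
    (r : ι → ℝ) : IsOpen {x | ∀ i, p i → h i x < r i} := by
  have : {x | ∀ i, p i → h i x < r i} = ⋂ i, {x | p i → h i x < r i} := by
    ext x; simp
  rw [this]
  refine isOpen_iInter_of_finite fun i => ?_
  by_cases hp : p i
  · simpa [hp] using isOpen_lt (hh i) continuous_const
  · simp [hp]

theorem rate_lp {ι : Type} {I : Finset ι} {h : ι → M → ℝ} {a : ι → ℝ} {β : ℝ} (hh : ∀ i, S.LP (h i))
    (ha : ∀ i ∈ I, 0 < a i) (hβ : 0 ≤ β) : S.LP fun x => (∑ i ∈ I, h i x ^ (a i)⁻¹) ^ β :=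
  (Dom.lp_sum (g := fun i x => h i x ^ (a i)⁻¹) fun i hi =>
    (hh i).rpow (inv_nonneg.2 (ha i hi).le)).rpow hβ

theorem sing_of_rateG {ι : Type} [Fintype ι] {h : ι → M → ℝ} {a : ι → ℝ} {y : M} {α : ℝ} (hh : ∀ i, S.LP (h i))
    (hα : 0 ≤ α) (hR : S.Rate h a y α) {δ : ℝ} (hδ : 0 < δ) :
    S.Sing (fun x => (∑ i with 0 < a i, h i x ^ (a i)⁻¹) ^ (α + δ)) y := by
  intro U hU
  obtain ⟨c, hc, hct⟩ := hR (δ / 2) (by linarith) U hU
  obtain ⟨N, hN⟩ : ∃ N : ℝ, N = Fintype.card ι + 1 := ⟨_, rfl⟩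
  have hN0 : 0 < N := by rw [hN]; positivity
  have key : ∀ t : ℝ, 0 ≤ t → ENNReal.ofReal (c / N ^ (α + δ) * Real.exp (δ / 2 * t)) ≤
      ∫⁻ x in U, (ENNReal.ofReal ((∑ i with 0 < a i, h i x ^ (a i)⁻¹) ^ (α + δ)))⁻¹ ∂S.μ := by
    intro t ht
    have hP : MeasurableSet {x | ∀ i, 0 < a i → h i x < Real.exp (-(a i) * t)} :=
      (rate_poly_open (fun i => (hh i).1) _ _).measurableSet
    have hq : 0 < (N * Real.exp (-t)) ^ (α + δ) := by positivity
    calc ENNReal.ofReal (c / N ^ (α + δ) * Real.exp (δ / 2 * t))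
        = (ENNReal.ofReal ((N * Real.exp (-t)) ^ (α + δ)))⁻¹ *
            ENNReal.ofReal (c * Real.exp (-(α + δ / 2) * t)) := by
          rw [← ENNReal.ofReal_inv_of_pos hq, ← ENNReal.ofReal_mul (by positivity)]
          congr 1
          rw [Real.mul_rpow hN0.le (Real.exp_pos _).le, ← Real.exp_mul]
          have : Real.exp (-(α + δ / 2) * t) = Real.exp (-t * (α + δ)) * Real.exp (δ / 2 * t) := by
            rw [← Real.exp_add]; congr 1; ring
          rw [this]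
          field_simp
      _ ≤ (ENNReal.ofReal ((N * Real.exp (-t)) ^ (α + δ)))⁻¹ *
            (S.μ.restrict U) {x | ∀ i, 0 < a i → h i x < Real.exp (-(a i) * t)} := by
          rw [Measure.restrict_apply hP, inter_comm]
          gcongr
          exact hct t ht
      _ = ∫⁻ x in U, {x | ∀ i, 0 < a i → h i x < Real.exp (-(a i) * t)}.indicator
            (fun _ => (ENNReal.ofReal ((N * Real.exp (-t)) ^ (α + δ)))⁻¹) x ∂S.μ := by
          rw [lintegral_indicator_const hP]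
      _ ≤ _ := by
          refine lintegral_mono fun x => ?_
          refine indicator_apply_le' (fun hx => ?_) (fun _ => zero_le)
          refine ENNReal.inv_le_inv.2 (ENNReal.ofReal_le_ofReal ?_)
          refine Real.rpow_le_rpow (Finset.sum_nonneg fun j _ => Real.rpow_nonneg ((hh j).nonneg x) _) ?_
            (by linarith)
          have h1 : ∑ i with 0 < a i, h i x ^ (a i)⁻¹ ≤ ∑ i with 0 < a i, Real.exp (-t) := by
            refine Finset.sum_le_sum fun i hi => ?_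
            have hi' := (Finset.mem_filter.1 hi).2
            have := Real.rpow_le_rpow ((hh i).nonneg x) (hx i hi').le (inv_nonneg.2 hi'.le)
            rw [← Real.exp_mul] at this
            have e : -(a i) * t * (a i)⁻¹ = -t := by field_simp
            rwa [e] at this
          refine h1.trans ?_
          rw [Finset.sum_const, nsmul_eq_mul]
          gcongr
          have : ((Finset.univ.filter fun i => 0 < a i).card : ℝ) ≤ Fintype.card ι := by
            exact_mod_cast Finset.card_le_univ _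
          linarith
  have hlim : Tendsto (fun t : ℝ => ENNReal.ofReal (c / N ^ (α + δ) * Real.exp (δ / 2 * t))) atTop (𝓝 ⊤) := by
    refine ENNReal.tendsto_ofReal_atTop.comp ?_
    refine Tendsto.const_mul_atTop (by positivity) (Real.tendsto_exp_atTop.comp ?_)
    exact Tendsto.const_mul_atTop (by linarith) tendsto_id
  exact top_le_iff.1 (le_of_tendsto hlim ((eventually_ge_atTop 0).mono key))

theorem stRate (hV : StVol S) : StRate S := by
  intro ι _ h a y α hh hα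
  refine ⟨fun hR δ hδ => sing_of_rateG hh hα hR hδ, fun H δ hδ U hU => ?_⟩
  have hβ : 0 < α + δ / 2 := by linarith
  have hg : S.LP fun x => (∑ i with 0 < a i, h i x ^ (a i)⁻¹) ^ (α + δ / 2) :=
    rate_lp hh (fun i hi => (Finset.mem_filter.1 hi).2) hβ.le
  have hS := H (δ / 2) (by linarith)
  generalize hgd : (fun x => (∑ i with 0 < a i, h i x ^ (a i)⁻¹) ^ (α + δ / 2)) = g at hg hS
  have hU' : U ∩ {x | g x < g y + 1} ∈ 𝓝 y :=
    inter_mem hU ((isOpen_lt hg.1 continuous_const).mem_nhds (by simp))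
  obtain ⟨V, hV', c, hc, hct⟩ := hV y _ hU' (g y + 1) (δ / 2 / (α + δ / 2)) (by positivity)
  refine ⟨c, hc, fun t ht => ?_⟩
  have := hct g hg (fun x hx => le_of_lt hx.2) y (mem_of_mem_nhds hV') hS ((α + δ / 2) * t) (by positivity)
  have e : -(1 + δ / 2 / (α + δ / 2)) * ((α + δ / 2) * t) = -(α + δ) * t := by
    field_simp
    ring
  rw [e] at this
  refine this.trans (measure_mono fun x hx => ⟨hx.1.1, fun i hi => ?_⟩)
  have hx2 : g x < Real.exp (-((α + δ / 2) * t)) := hx.2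
  rw [← hgd] at hx2
  exact rate_poly_of_lt (h := fun i => h i x) (fun j => (hh j).nonneg x)
    (fun j hj => (Finset.mem_filter.1 hj).2) hβ ht le_rfl hx2 (by simpa using hi)

theorem stLim (hV : StVol S) : StLim S := by
  intro ι _ h a y α h₀ a₀ y₀ α₀ hh hα ⟨U₀, hU₀, B, hB⟩ hlh hla hly hlα hR δ hδ U hU
  have hα₀ : 0 ≤ α₀ := ge_of_tendsto' hlα hα
  have hβ : 0 < α₀ + δ / 2 := by linarith
  obtain ⟨U₂, hU₂, hU₂o, hU₂f⟩ := Dom.exists_fin (D := S.toDom) y₀
  obtain ⟨U₁, hU₁s, hU₁o, hU₁y⟩ := mem_nhds_iff.1 (inter_mem (inter_mem hU hU₀) hU₂)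
  have hU₁f : S.μ U₁ ≠ ⊤ := ne_top_of_le_ne_top hU₂f (measure_mono fun x hx => (hU₁s hx).2)
  obtain ⟨I, hI⟩ : ∃ I : Finset ι, I = Finset.univ.filter fun i => 0 < a₀ i := ⟨_, rfl⟩
  have hI' : ∀ i, i ∈ I ↔ 0 < a₀ i := fun i => by simp [hI]
  obtain ⟨B₂, hB₂⟩ : ∃ B₂ : ℝ, B₂ = 1 + ∑ i ∈ I, max B 1 ^ (a₀ i / 2)⁻¹ := ⟨_, rfl⟩
  have hB₂1 : 1 ≤ B₂ := by
    have : 0 ≤ ∑ i ∈ I, max B 1 ^ (a₀ i / 2)⁻¹ :=
      Finset.sum_nonneg fun j _ => Real.rpow_nonneg (by positivity) _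
    linarith
  obtain ⟨V, hV', c, hc, hct⟩ := hV y₀ U₁ (hU₁o.mem_nhds hU₁y) (B₂ ^ (α₀ + δ / 2))
    (δ / 2 / (α₀ + δ / 2)) (by positivity)
  refine ⟨c * Real.exp (-(α₀ + δ)), by positivity, fun t ht => ?_⟩
  have ev1 : ∀ᶠ ν in atTop, ∀ i ∈ I, a₀ i / 2 < a ν i :=
    (Finset.eventually_all I).2 fun i hi =>
      (hla i).eventually (lt_mem_nhds (by have := (hI' i).1 hi; linarith))
  have ev2 : ∀ᶠ ν in atTop, α ν < α₀ + δ / 4 := hlα.eventually (gt_mem_nhds (by linarith))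
  have ev3 : ∀ᶠ ν in atTop, y ν ∈ V := hly.eventually hV'
  let P : ℕ → Set M := fun ν => U₁ ∩ {x | ∀ i, 0 < a₀ i → h ν i x < Real.exp (-(a ν i) * (t + 1))}
  have hPo : ∀ ν, IsOpen (P ν) := fun ν => hU₁o.inter (rate_poly_open (fun i => (hh ν i).1) _ _)
  have ev : ∀ᶠ ν in atTop, ENNReal.ofReal (c * Real.exp (-(α₀ + δ)) * Real.exp (-(α₀ + δ) * t)) ≤
      S.μ (P ν) := by
    filter_upwards [ev1, ev2, ev3] with ν e1 e2 e3
    have ha : ∀ i ∈ I, 0 < a ν i := fun i hi => by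
      have := (hI' i).1 hi
      have := e1 i hi
      linarith
    have hγ : 0 < α ν + δ / 4 := by have := hα ν; linarith
    have hg : S.LP fun x => (∑ i ∈ I, h ν i x ^ (a ν i)⁻¹) ^ (α ν + δ / 4) := rate_lp (hh ν) ha hγ.le
    have hs0 : ∀ x, 0 ≤ ∑ i ∈ I, h ν i x ^ (a ν i)⁻¹ := fun x =>
      Finset.sum_nonneg fun j _ => Real.rpow_nonneg ((hh ν j).nonneg x) _
    have hS : S.Sing (fun x => (∑ i ∈ I, h ν i x ^ (a ν i)⁻¹) ^ (α ν + δ / 4)) (y ν) := by
      refine (sing_of_rateG (hh ν) (hα ν) (hR ν) (show 0 < δ / 4 by linarith)).mono one_pos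
        (Eventually.of_forall fun x => ?_)
      rw [one_mul]
      refine Real.rpow_le_rpow (hs0 x) ?_ hγ.le
      refine Finset.sum_le_sum_of_subset_of_nonneg (fun i hi => ?_)
        fun j _ _ => Real.rpow_nonneg ((hh ν j).nonneg x) _
      simpa using ha i hi
    have hb : ∀ x ∈ U₁, (∑ i ∈ I, h ν i x ^ (a ν i)⁻¹) ^ (α ν + δ / 4) ≤ B₂ ^ (α₀ + δ / 2) := by
      intro x hx
      have h1 : ∑ i ∈ I, h ν i x ^ (a ν i)⁻¹ ≤ B₂ := by
        have : ∑ i ∈ I, h ν i x ^ (a ν i)⁻¹ ≤ ∑ i ∈ I, max B 1 ^ (a₀ i / 2)⁻¹ := by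
          refine Finset.sum_le_sum fun i hi => ?_
          have hi0 := (hI' i).1 hi
          refine (Real.rpow_le_rpow ((hh ν i).nonneg x) ((hB ν i x (hU₁s hx).1.2).trans (le_max_left B 1))
            (inv_nonneg.2 (ha i hi).le)).trans ?_
          exact Real.rpow_le_rpow_of_exponent_le (le_max_right _ _)
            (inv_anti₀ (by linarith) (e1 i hi).le)
        linarith
      exact (Real.rpow_le_rpow (hs0 x) h1 hγ.le).trans
        (Real.rpow_le_rpow_of_exponent_le hB₂1 (by linarith))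
    have := hct _ hg hb (y ν) e3 hS ((α₀ + δ / 2) * (t + 1)) (by positivity)
    have e : c * Real.exp (-(1 + δ / 2 / (α₀ + δ / 2)) * ((α₀ + δ / 2) * (t + 1))) =
        c * Real.exp (-(α₀ + δ)) * Real.exp (-(α₀ + δ) * t) := by
      rw [mul_assoc, ← Real.exp_add]
      congr 2
      field_simp
      ring
    rw [e] at this
    refine this.trans (measure_mono fun x hx => ⟨hx.1, fun i hi => ?_⟩)
    exact rate_poly_of_lt (h := fun i => h ν i x) (fun j => (hh ν j).nonneg x) ha hγ (by linarith)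
      (by linarith) hx.2 ((hI' i).2 hi)
  have hanti : Antitone fun N : ℕ => ⋃ ν ≥ N, P ν := fun N N' hN =>
    biUnion_subset_biUnion_left fun ν hν => le_trans hN hν
  have hm := hanti.measure_iInter (μ := S.μ)
    (fun N => (isOpen_biUnion fun ν _ => hPo ν).measurableSet.nullMeasurableSet)
    ⟨0, ne_top_of_le_ne_top hU₁f (measure_mono (iUnion₂_subset fun ν _ => inter_subset_left))⟩
  refine le_trans ?_ (measure_mono (s := ⋂ N : ℕ, ⋃ ν ≥ N, P ν) fun x hx => ?_)
  · rw [hm]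
    refine le_iInf fun N => ?_
    obtain ⟨ν, h1, h2⟩ := (ev.and (eventually_ge_atTop N)).exists
    exact h1.trans (measure_mono (subset_biUnion_of_mem (u := P) h2))
  · have hf : ∃ᶠ ν in atTop, x ∈ P ν := by
      rw [frequently_atTop]
      intro N
      simpa using mem_iInter.1 hx N
    obtain ⟨ν, hν⟩ := hf.exists
    refine ⟨(hU₁s hν.1).1.1, fun i hi => ?_⟩
    have l2 : Tendsto (fun ν => Real.exp (-(a ν i) * (t + 1))) atTop (𝓝 (Real.exp (-(a₀ i) * (t + 1)))) :=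
      (Real.continuous_exp.tendsto _).comp ((hla i).neg.mul_const _)
    have h1 : h₀ i x ≤ Real.exp (-(a₀ i) * (t + 1)) := by
      by_contra hlt
      obtain ⟨ν', e1, e2⟩ := (hf.and_eventually (l2.eventually_lt (hlh i x) (not_le.1 hlt))).exists
      exact lt_asymm (e1.2 i hi) e2
    refine h1.trans_lt (Real.exp_lt_exp.2 ?_)
    nlinarith

end Crest.Agent.R271
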