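import Crest.Agent.R271.G.GZ
import Crest.Agent.R271.G.Rate

/-! # Row 271, block G: multiplier ideals, Nadel -/

set_option autoImplicit false
set_option linter.unusedSectionVars false

open MeasureTheory Filter Topology Set
open scoped ENNReal ContDiff

noncomputable section

namespace Crest.Agent.R271

variable {n : ℕ} {M : Type} [TopologicalSpace M] [T2Space M] [SecondCountableTopology M]
  [MeasurableSpace M] [BorelSpace M] {A : Type} [CommRing A] [Algebra ℂ A] {S : Aff n M A}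

/-- Recipe: `stCo` with `ι = id`, `θ = 1`, `sing_of_rateG` with `δ = 1`, `dist2_le`, `Sing.mono`. -/
theorem sing_dist2 (y : M) : S.Sing (fun x => S.dist2 y x ^ ((n : ℝ) + 1)) y := by
  have h1 := sing_of_rateG (fun _ => (S.hol _).lp_sq) (by positivity) (S.stCo n id y 1 zero_le_one) one_pos
  obtain ⟨C, hC, h⟩ := S.dist2_le y
  refine h1.mono (C := C ^ ((n : ℝ) + 1)) (by positivity) (h.mono fun x hx => ?_)
  simp only [zero_lt_one, Finset.filter_true, inv_one, Real.rpow_one, one_mul, id]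
  rw [← Real.mul_rpow hC.le (Finset.sum_nonneg fun _ _ => sq_nonneg _)]
  exact Real.rpow_le_rpow ((S.lp_dist2 y).nonneg x) hx (by positivity)

/-- Recipe: `U` with `∫_U 1/g < ∞`, `{dist2 y ≤ r} ⊆ U`; `HD.gz` with `ε = 1`, `g₀ = g`, `G = (dist2 y / r)^(n+1)`,
`F₀ = 1`; `g (1 + G)² ≤ C Wt^K` (`stLP.mod_*`), so `S.alg` applies; `(1 + G)²` is locally bounded. -/
theorem stZar (H : HD S.toDom) : StZar S := by
  intro g hg hm y hy
  simp only [Dom.Sing, not_forall] at hy
  obtain ⟨U, hU, hI⟩ := hy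
  obtain ⟨r, hr, hrU⟩ := S.dist2_nhds hU
  obtain ⟨C, hC, h⟩ := H.gz one_pos
  have L := S.stLP
  have N0 := (S.lp_dist2 y).nonneg
  have r0 := (inv_pos.2 hr).le
  let G : M → ℝ := fun x => (r⁻¹ * S.dist2 y x) ^ ((n : ℝ) + 1)
  have hG : S.LP G := ((Dom.lp_const r0).mul (S.lp_dist2 y)).rpow (by positivity)
  have G0 := hG.nonneg
  obtain ⟨F, hF, h1, hN⟩ := h g G (fun _ => 1) y hg hG (Dom.hol_const 1)
    ((sing_dist2 y).mono (C := r⁻¹ ^ ((n : ℝ) + 1)) (by positivity)
      (Eventually.of_forall fun x => (Real.mul_rpow r0 (N0 x)).le))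
  have hN' : S.Nm F (fun x => g x * (1 + G x) ^ ((1 : ℝ) + 1)) ≠ ⊤ := by
    refine ne_top_of_le_ne_top (ENNReal.mul_ne_top hC (ne_top_of_le_ne_top hI ?_)) hN
    have ho : IsOpen {x | G x < 1} := isOpen_lt hG.1 continuous_const
    refine le_trans (le_of_eq ?_) (lintegral_mono_set (s := {x | G x < 1}) fun x hx => hrU ?_)
    · rw [← lintegral_indicator ho.measurableSet]
      refine lintegral_congr fun x => ?_
      by_cases c : x ∈ {x | G x < 1}
      · simp [indicator_of_mem c]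
      · simp [indicator_of_notMem c]
    · by_contra c
      refine absurd hx (not_lt.2 (Real.one_le_rpow ?_ (by positivity)))
      rw [le_inv_mul_iff₀ hr, mul_one]
      exact (not_le.1 c).le
  have mN : S.Mod (S.dist2 y) := by
    unfold Aff.dist2
    induction (Finset.univ : Finset (Fin S.N)) using Finset.induction_on with
    | empty => simpa using L.mod_const 0
    | insert i s hi ih => simpa only [Finset.sum_insert hi] using L.mod_add _ _ (L.mod_sq _) ih
  have g1 : ∀ x, 0 ≤ 1 + G x := fun x => add_nonneg zero_le_one (G0 x)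
  obtain ⟨C₁, K, hK⟩ := L.mod_mul _ _ hg.nonneg (fun x => Real.rpow_nonneg (g1 x) _) hm
    (L.mod_rpow _ ((1 : ℝ) + 1) g1 (by norm_num) (L.mod_add _ _ (L.mod_const 1)
      (L.mod_rpow _ ((n : ℝ) + 1) (fun x => mul_nonneg r0 (N0 x)) (by positivity)
        (L.mod_mul _ _ (fun _ => r0) N0 (L.mod_const _) mN))))
  obtain ⟨a, ha⟩ := S.alg F K hF (ne_top_of_le_ne_top
    (ENNReal.mul_ne_top (ENNReal.ofReal_ne_top (r := |C₁| + 1)) hN') (by
      rw [Dom.Nm, ← lintegral_const_mul' _ _ ENNReal.ofReal_ne_top]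
      refine lintegral_mono fun x => ?_
      have W0 : 0 < S.Wt x ^ K := Real.rpow_pos_of_pos (by linarith [S.one_le_Wt x]) _
      change ENNReal.ofReal (_ / S.Wt x ^ K) ≤ _
      rw [mul_left_comm, ENNReal.ofReal_div_of_pos W0, div_eq_mul_inv]
      exact mul_le_mul_right (inv_le_mul_inv (by positivity) ((hK x).trans
        (mul_le_mul_of_nonneg_right (by linarith [le_abs_self C₁]) W0.le))) _))
  refine ⟨a, by rw [← ha, h1]; exact one_ne_zero, fun y' => ?_⟩
  have cG : Continuous fun x => (1 + G x) ^ ((1 : ℝ) + 1) :=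
    (continuous_const.add hG.1).rpow_const fun _ => Or.inr (by norm_num)
  set c := (1 + G y') ^ ((1 : ℝ) + 1) + 1
  have c0 : 0 < c := add_pos_of_nonneg_of_pos (Real.rpow_nonneg (g1 _) _) one_pos
  have ho : IsOpen {x | (1 + G x) ^ ((1 : ℝ) + 1) < c} := isOpen_lt cG continuous_const
  refine ⟨_, ho.mem_nhds (lt_add_one ((1 + G y') ^ ((1 : ℝ) + 1))), ne_top_of_le_ne_top
    (ENNReal.mul_ne_top (ENNReal.ofReal_ne_top (r := c)) hN') ?_⟩
  rw [Dom.Nm, ← lintegral_const_mul' _ _ ENNReal.ofReal_ne_top]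
  refine (setLIntegral_mono' ho.measurableSet fun x hx => ?_).trans (setLIntegral_le_lintegral _ _)
  rw [mul_left_comm, ha]
  refine mul_le_mul_right (inv_le_mul_inv c0 ?_) _
  rw [mul_comm]
  exact mul_le_mul_of_nonneg_right (le_of_lt hx) (hg.nonneg x)

theorem db_le_levi {D : Dom n M} {u : M → ℂ} {φ : M → ℝ} (hu : D.Sm u) (hφ : D.SPsh φ) {K : Set M}
    (hK : IsCompact K) : ∃ C : ℝ, 0 ≤ C ∧ ∀ y ∈ K, ∀ ξ, ‖D.db u y ξ‖ ^ 2 ≤ C * D.levi φ y ξ := by
  have hc : IsCompact (K ×ˢ Metric.sphere (0 : E n) 1) := hK.prod (isCompact_sphere _ _)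
  obtain ⟨c, hc0, hc1⟩ := hc.exists_forall_le' (f := fun q : M × E n => D.levi φ q.1 q.2)
    (Dom.levi_cont hφ.1).continuousOn (a := 0) fun q hq => hφ.2 _ _ (by
      rintro h
      simpa [h] using hq.2)
  obtain ⟨b, hb⟩ := hK.exists_bound_of_continuousOn hu.d.continuous.continuousOn
  refine ⟨b ^ 2 / c, by positivity, fun y hy ξ => ?_⟩
  have h1 : ‖D.db u y ξ‖ ≤ b * ‖ξ‖ := by
    have e1 := ((D.d u y).le_opNorm ξ).trans (mul_le_mul_of_nonneg_right (hb y hy) (norm_nonneg _))
    have e2 := ((D.d u y).le_opNorm (Complex.I • ξ)).trans (mul_le_mul_of_nonneg_right (hb y hy) (norm_nonneg _))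
    rw [norm_smul, Complex.norm_I, one_mul] at e2
    have e3 := norm_add_le (D.d u y ξ) (Complex.I * D.d u y (Complex.I • ξ))
    rw [norm_mul, Complex.norm_I, one_mul] at e3
    rw [Dom.db, norm_div, Complex.norm_ofNat]
    linarith
  have h2 : c * ‖ξ‖ ^ 2 ≤ D.levi φ y ξ := by
    rcases eq_or_ne ξ 0 with rfl | h
    · simpa using hφ.psh.2 y 0
    have := hc1 (y, ‖ξ‖⁻¹ • ξ) ⟨hy, by simp [norm_smul, h]⟩
    rwa [Dom.levi_smul hφ.1, inv_pow, le_inv_mul_iff₀ (by positivity), mul_comm] at this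
  calc _ ≤ (b * ‖ξ‖) ^ 2 := pow_le_pow_left₀ (norm_nonneg _) h1 2
    _ = b ^ 2 / c * (c * ‖ξ‖ ^ 2) := by field_simp
    _ ≤ _ := mul_le_mul_of_nonneg_left h2 (by positivity)

theorem lint_ne_top {D : Dom n M} {f : M → ℝ} (hf : Continuous f) {K : Set M} (hK : IsCompact K)
    (h0 : ∀ y, y ∉ K → f y = 0) : ∫⁻ y, ENNReal.ofReal (f y) ∂D.μ ≠ ⊤ :=
  have := D.locFinG
  (hf.integrable_of_hasCompactSupport (HasCompactSupport.intro hK h0)).lintegral_lt_top.ne

/-- Recipe: `{dist2 x ≤ r} \ {x}` consists of non-singular points; `u = smoothTransition (2 - 3 dist2 x / r)`;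
`K = {r/4 ≤ dist2 x ≤ r}` is compact, `db u = 0` off `K`, and `‖db u ξ‖² ≤ C levi φ ξ` on `K` (compactness of
`K × sphere`, `levi_cont`, `levi_smul`; `‖d u y ξ‖ ≤ ‖d u y‖ ‖ξ‖`).  `HD.hs` with `Φ ν = φ_ν + φ`, `h = C 1_K`,
`int_compact`; `Sing.eq_zero`; `|F|² ≤ 2 |u|² + 2 |u - F|²`. -/
theorem stNad (H : HD S.toDom) : StNad S := by
  intro g φ Γ x hg hφ hΓ Γ0 hle hS hev
  obtain ⟨r, hr, hrU⟩ := S.dist2_nhds (eventually_nhdsWithin_iff.1 hev)
  have cN := (S.lp_dist2 x).1
  let β : M → ℝ := fun y => Real.smoothTransition (2 - 3 * (r⁻¹ * S.dist2 x y))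
  have sβ : S.Sm β := ((Dom.sm_const 2).sub ((Dom.sm_const 3).mul ((Dom.sm_const _).mul (S.sm_dist2 x)))).comp
    Real.smoothTransition.contDiff
  have su := sβ.ofReal
  have cu := su.continuous
  have β0 : ∀ y, r < S.dist2 x y → β y = 0 := fun y hy => Real.smoothTransition.zero_of_nonpos (by
    have : 1 < r⁻¹ * S.dist2 x y := by rwa [lt_inv_mul_iff₀ hr, mul_one]
    linarith)
  have β1 : ∀ y, S.dist2 x y < r / 4 → β y = 1 := fun y hy => Real.smoothTransition.one_of_one_le (by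
    have : r⁻¹ * S.dist2 x y < 1 / 4 := by rw [inv_mul_lt_iff₀ hr]; linarith
    linarith)
  have βn : ∀ y, ‖(β y : ℂ)‖ ≤ 1 := fun y => by
    rw [Complex.norm_real, Real.norm_of_nonneg (Real.smoothTransition.nonneg _)]
    exact Real.smoothTransition.le_one _
  have hK₀ := S.compact_dist2 x r
  have hK : IsCompact ({y | S.dist2 x y ≤ r} ∩ {y | r / 4 ≤ S.dist2 x y}) :=
    hK₀.inter_right (isClosed_le continuous_const cN)
  set K := {y | S.dist2 x y ≤ r} ∩ {y | r / 4 ≤ S.dist2 x y}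
  obtain ⟨C, C0, hC⟩ := db_le_levi su hφ hK
  have cφ := hφ.1.continuous
  obtain ⟨b, hb⟩ := hK.exists_bound_of_continuousOn (f := fun y => Real.exp (-φ y)) (by fun_prop)
  have hI := Dom.int_compact hK fun y hy => hrU hy.1 (by
    rintro rfl
    have := hy.2
    simp only [mem_ofPred_eq, S.dist2_self] at this
    linarith)
  obtain ⟨ψ, a1, a2, a3, -, a5⟩ := hg.bdd
  have cψ := fun ν => (a1 ν).1.continuous
  obtain ⟨F, hF, hN⟩ := H.hs (Φ := fun ν y => ψ ν y + φ y) (h := fun _ => K.indicator fun _ => C)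
    (u := fun _ y => β y) (u₀ := fun y => β y) (g := fun y => g y * Real.exp (φ y))
    (Ψ := fun y => max (ψ 0 y + φ y) 1) (ENNReal.mul_ne_top (ENNReal.ofReal_ne_top (r := C * b)) hI)
    (fun ν => (a1 ν).add hφ.psh) (fun _ => su)
    (fun _ => measurable_const.indicator hK.isClosed.measurableSet)
    (fun _ y => indicator_nonneg (fun _ _ => C0) _)
    (fun ν y ξ => by
      by_cases c : y ∈ K
      · rw [indicator_of_mem c, Dom.levi_add (a1 ν).1 hφ.1]
        exact (hC y c ξ).trans (mul_le_mul_of_nonneg_left (le_add_of_nonneg_left ((a1 ν).2 y ξ)) C0)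
      obtain ⟨e, he⟩ : ∃ e : ℂ, (fun y => (β y : ℂ)) =ᶠ[𝓝 y] fun _ => e := by
        rcases not_and_or.1 c with c | c
        · exact ⟨0, (continuousAt_const.eventually_lt cN.continuousAt (not_le.1 c)).mono fun z hz => by
            simp [β0 z hz]⟩
        · exact ⟨1, (cN.continuousAt.eventually_lt continuousAt_const (not_le.1 c)).mono fun z hz => by
            simp [β1 z hz]⟩
      rw [indicator_of_notMem c, Dom.db_congr he]
      simp [Dom.db])
    (fun ν => lint_ne_top (by have := cψ ν; fun_prop) hK₀ fun y hy => by simp [β0 y (not_le.1 hy)])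
    (fun ν => by
      rw [← lintegral_const_mul' _ _ ENNReal.ofReal_ne_top, ← lintegral_indicator hK.isClosed.measurableSet]
      refine lintegral_mono fun y => ?_
      by_cases c : y ∈ K
      · rw [indicator_of_mem c, indicator_of_mem c, neg_add, add_comm, Real.exp_add, ← mul_assoc,
          ofReal_exp_neg (by positivity)]
        gcongr
        exacts [(le_abs_self _).trans (hb y c), a3 ν y]
      · simp [indicator_of_notMem c])
    (by have := cψ 0; fun_prop) (fun ν y => le_max_of_le_left (by linarith [a2 ν y]))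
    (fun _ y => le_max_of_le_right (βn y)) (fun _ => tendsto_const_nhds)
    (fun y => by simpa only [Real.exp_add] using (a5 y).mul_const _)
  have hN' := ne_top_of_le_ne_top (ENNReal.mul_ne_top ENNReal.ofReal_ne_top hI) hN
  have cF := hF.sm.continuous
  have cg := hg.1
  have e := (hS.mono (C := Real.exp (φ x) + 1) (by positivity) (((Real.continuous_exp.comp cφ).continuousAt.eventually_lt
    continuousAt_const (lt_add_one _)).mono fun y hy => by
      rw [mul_comm]
      exact mul_le_mul_of_nonneg_right hy.le (hg.nonneg y))).eq_zero (Continuous.continuousAt (by fun_prop)) hN'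
  have e2 : ∀ f : M → ℂ, ∫⁻ y, ENNReal.ofReal (‖f y‖ ^ 2 / Γ y) ∂S.μ = S.Nm f Γ := fun f =>
    lintegral_congr fun y => by rw [ENNReal.ofReal_div_of_pos (Γ0 y), div_eq_mul_inv]
  refine ⟨F, hF, ?_, ?_⟩
  · rw [← sub_eq_zero.1 e, β1 x (by rw [S.dist2_self]; positivity)]
    simp
  · rw [e2]
    refine ne_top_of_le_ne_top ?_ (Dom.Nm_split (a := fun y => β y) (b := fun y => β y - F y) (g₁ := Γ)
      (fun y => by simpa using norm_sub_le (β y : ℂ) (β y - F y)) (fun _ => le_rfl) hle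
      (Continuous.measurable (by fun_prop)) (Continuous.measurable (by fun_prop)))
    have := e2 _ ▸ lint_ne_top (D := S.toDom) (f := fun y => ‖(β y : ℂ)‖ ^ 2 / Γ y)
      (Continuous.div (by fun_prop) hΓ fun y => (Γ0 y).ne') hK₀ fun y hy => by simp [β0 y (not_le.1 hy)]
    finiteness

end Crest.Agent.R271
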