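import Crest.Agent.R271.G.Sum
import Crest.Agent.R271.G.Zar

/-! # Row 271, block G.  Guan-Zhou lemma and its consequences. See `Crest/Agent/R271/Blueprint.lean`, section G. -/

set_option autoImplicit false

namespace Crest.Agent.R271

theorem gb (hH : HB) : GB where
  lp := fun _ _ _ _ _ _ _ _ _ _ _ S _ => S.stLP
  vol := fun _ _ _ _ _ _ _ _ _ _ _ S _ => stVol (hd hH S)
  rate := fun _ _ _ _ _ _ _ _ _ _ _ S _ => stRate (stVol (hd hH S))
  sum := fun _ _ _ _ _ _ _ _ _ _ _ S _ => stSum (hd hH S)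
  lim := fun _ _ _ _ _ _ _ _ _ _ _ S _ => stLim (stVol (hd hH S))
  zar := fun _ _ _ _ _ _ _ _ _ _ _ S _ => stZar (hd hH S)
  nad := fun _ _ _ _ _ _ _ _ _ _ _ S _ => stNad (hd hH S)
  co := fun _ _ _ _ _ _ _ _ _ _ _ S _ => S.stCo

end Crest.Agent.R271
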