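import Crest.Agent.R271.G.LP

/-! # Row 271, block G: measure theory on a Riemann domain -/

set_option autoImplicit false
set_option linter.unusedSectionVars false

open MeasureTheory Filter Topology Set
open scoped ENNReal ContDiff

noncomputable section

namespace Crest.Agent.R271

variable {n : ℕ} {M : Type} [TopologicalSpace M] [T2Space M] [SecondCountableTopology M]
  [MeasurableSpace M] [BorelSpace M] {D : Dom n M}

namespace Dom

/-- Recipe: `D.hμ e`, `Measure.map_apply`, `Measure.restrict_apply`. -/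
theorem IsCh.meas {e : OpenPartialHomeomorph M (E n)} (he : D.IsCh e) {W : Set (E n)} (hW : MeasurableSet W)
    (h : W ⊆ e.target) : D.μ (D.p ⁻¹' W ∩ e.source) = volume W := by
  have h1 := congrArg (fun ν : Measure (E n) => ν W) (D.hμ e he)
  rwa [Measure.map_apply D.p_cont.measurable hW, Measure.restrict_apply (D.p_cont.measurable hW),
    Measure.restrict_apply hW, inter_eq_left.2 h] at h1

theorem exists_fin (y : M) : ∃ U ∈ 𝓝 y, IsOpen U ∧ D.μ U ≠ ⊤ := by
  have hW : IsOpen (Metric.ball (D.p y) 1 ∩ (D.ch y).target) := Metric.isOpen_ball.inter (D.ch y).open_target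
  have hU := (hW.preimage D.p_cont).inter (D.ch y).open_source
  refine ⟨_, hU.mem_nhds ⟨⟨Metric.mem_ball_self one_pos, D.ch_target y⟩, D.ch_source y⟩, hU, ?_⟩
  rw [(D.isCh y).meas hW.measurableSet inter_subset_right]
  exact ((measure_mono inter_subset_left).trans_lt measure_ball_lt_top).ne

theorem locFinG (D : Dom n M) : IsLocallyFiniteMeasure D.μ :=
  ⟨fun y => let ⟨U, h1, _, h2⟩ := exists_fin (D := D) y; ⟨U, h1, h2.lt_top⟩⟩

theorem Sing.top {G : M → ℝ} {y : M} (h : D.Sing G y) {c : ℝ≥0∞} (h0 : c ≠ 0) (h1 : c ≠ ⊤) {U : Set M} (hU : U ∈ 𝓝 y)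
    {f : M → ℝ≥0∞} (hf : ∀ᶠ x in 𝓝 y, c * (ENNReal.ofReal (G x))⁻¹ ≤ f x) : ∫⁻ x in U, f x ∂D.μ = ⊤ := by
  obtain ⟨V, hV, hVo, hy⟩ := mem_nhds_iff.1 (inter_mem hU hf)
  refine top_le_iff.1 (le_trans ?_ ((setLIntegral_mono' hVo.measurableSet fun x hx => (hV hx).2).trans
    (lintegral_mono_set (hV.trans inter_subset_left))))
  rw [lintegral_const_mul' _ _ h1, h V (hVo.mem_nhds hy), ENNReal.mul_top h0]

/-- Recipe: shrink to an open set where the inequality holds; `lintegral_const_mul'`. -/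
theorem Sing.mono {G g : M → ℝ} {y : M} (h : D.Sing G y) {C : ℝ} (hC : 0 < C)
    (hg : ∀ᶠ x in 𝓝 y, g x ≤ C * G x) : D.Sing g y := by
  refine fun U hU => h.top (c := (ENNReal.ofReal C)⁻¹) (ENNReal.inv_ne_zero.2 ENNReal.ofReal_ne_top)
    (ENNReal.inv_ne_top.2 (ENNReal.ofReal_pos.2 hC).ne') hU (hg.mono fun x hx => ?_)
  rw [← ENNReal.mul_inv (Or.inl (ENNReal.ofReal_pos.2 hC).ne') (Or.inl ENNReal.ofReal_ne_top),
    ← ENNReal.ofReal_mul hC.le]
  exact ENNReal.inv_le_inv.2 (ENNReal.ofReal_le_ofReal hx)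

/-- Recipe: otherwise `1 ≤ C * G` near `y`, so `Sing (fun _ => 1) y`, against `exists_fin`. -/
theorem Sing.nonpos {G : M → ℝ} {y : M} (h : D.Sing G y) (hG : ContinuousAt G y) : G y ≤ 0 := by
  by_contra h0
  rw [not_le] at h0
  have h1 : D.Sing (fun _ => 1) y := h.mono (C := 2 / G y) (by positivity)
    ((hG.eventually (lt_mem_nhds (half_lt_self h0))).mono fun x hx => by
      rw [div_mul_eq_mul_div, le_div_iff₀ h0]; linarith)
  obtain ⟨U, hU, -, h2⟩ := exists_fin (D := D) y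
  exact h2 (by simpa using h1 U hU)

/-- Recipe: otherwise `c ≤ ‖f‖²` on an open neighbourhood `U`, and `c ∫_U 1/g ≤ Nm f g`. -/
theorem Sing.eq_zero {g : M → ℝ} {y : M} (h : D.Sing g y) {f : M → ℂ} (hf : ContinuousAt f y)
    (hN : D.Nm f g ≠ ⊤) : f y = 0 := by
  by_contra h0
  have h1 : 0 < ‖f y‖ ^ 2 := pow_pos (norm_pos_iff.2 h0) 2
  have h2 := h.top (c := ENNReal.ofReal (‖f y‖ ^ 2 / 2)) (ENNReal.ofReal_pos.2 (half_pos h1)).ne' ENNReal.ofReal_ne_top
    univ_mem (f := fun x => ENNReal.ofReal (‖f x‖ ^ 2) * (ENNReal.ofReal (g x))⁻¹)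
    (((hf.norm.pow 2).eventually (lt_mem_nhds (half_lt_self h1))).mono fun x hx =>
      mul_le_mul_left (ENNReal.ofReal_le_ofReal hx.le) _)
  rw [Measure.restrict_univ] at h2
  exact hN h2

/-- Recipe: `IsCompact.induction_on`, `lintegral_union_le`. -/
theorem int_compact {g : M → ℝ} {K : Set M} (hK : IsCompact K) (h : ∀ y ∈ K, ¬ D.Sing g y) :
    ∫⁻ x in K, (ENNReal.ofReal (g x))⁻¹ ∂D.μ ≠ ⊤ := by
  refine (hK.induction_on (p := fun s => ∫⁻ x in s, (ENNReal.ofReal (g x))⁻¹ ∂D.μ < ⊤) (by simp)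
    (fun s t hst ht => (lintegral_mono_set hst).trans_lt ht)
    (fun s t hs ht => (lintegral_union_le _ s t).trans_lt (ENNReal.add_lt_top.2 ⟨hs, ht⟩)) fun y hy => ?_).ne
  have := h y hy
  simp only [Sing, not_forall] at this
  obtain ⟨U, hU, h1⟩ := this
  exact ⟨U, mem_nhdsWithin_of_mem_nhds hU, lt_top_iff_ne_top.2 h1⟩

/-- Recipe: countably many chart sources cover `M` (`TopologicalSpace.countable_cover_nhds` or
`isOpen_iUnion_countable`), `disjointed`; on a piece `A k ⊆ source`, `∫_{A k} f ∘ p = ∫ 1_{e '' A k} f` (`hμ`,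
`lintegral_map`; `e '' A k = target ∩ e.symm ⁻¹' A k` is measurable); `∑' k, 1_{e '' A k} v ≤ b`. -/
theorem lintegral_comp_p_le {b : ℕ} (hb : ∀ v, (D.p ⁻¹' {v}).encard ≤ b) {f : E n → ℝ≥0∞} (hf : Measurable f) :
    ∫⁻ x, f (D.p x) ∂D.μ ≤ b * ∫⁻ v, f v := by
  rcases isEmpty_or_nonempty M with hM | hM
  · rw [lintegral_of_isEmpty]; exact zero_le
  obtain ⟨x, hx⟩ := (isLindelof_univ (X := M)).indexed_countable_subcover (fun y => (D.ch y).source)
    (fun y => (D.ch y).open_source) fun y _ => mem_iUnion.2 ⟨y, D.ch_source y⟩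
  set s : ℕ → Set M := disjointed fun k => (D.ch (x k)).source with hs
  have h1 : ∀ k, MeasurableSet (s k) := MeasurableSet.disjointed fun k => (D.ch (x k)).open_source.measurableSet
  have h2 : ∀ k, s k ⊆ (D.ch (x k)).source := disjointed_subset _
  have h3 : ⋃ k, s k = univ := by rw [hs, iUnion_disjointed]; exact univ_subset_iff.1 hx
  set W : ℕ → Set (E n) := fun k => (D.ch (x k)).target ∩ (D.ch (x k)).symm ⁻¹' s k with hW
  have h4 : ∀ k, MeasurableSet (W k) := fun k => by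
    have := (D.ch (x k)).open_target.measurableSet.subtype_image
      ((continuousOn_iff_continuous_domRestrict.1 (D.ch (x k)).continuousOn_symm).measurable (h1 k))
    convert this using 1
    ext v
    exact ⟨fun hv => ⟨⟨v, hv.1⟩, hv.2, rfl⟩, fun ⟨u, hu, e⟩ => e ▸ ⟨u.2, hu⟩⟩
  have h5 : ∀ k, ∫⁻ y in s k, f (D.p y) ∂D.μ ≤ ∫⁻ v, (W k).indicator f v := fun k => by
    have e : s k = D.p ⁻¹' W k ∩ (D.ch (x k)).source := by
      ext y
      refine ⟨fun hy => ⟨⟨(D.isCh _).target (h2 k hy), ?_⟩, h2 k hy⟩, fun hy => ?_⟩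
      · rwa [mem_preimage, (D.isCh _).symm_p (h2 k hy)]
      · have := hy.1.2
        rwa [mem_preimage, (D.isCh _).symm_p hy.2] at this
    rw [e, ← Measure.restrict_restrict (D.p_cont.measurable (h4 k)), ← setLIntegral_map (h4 k) hf D.p_cont.measurable,
      D.hμ _ (D.isCh _), lintegral_indicator (h4 k)]
    exact lintegral_mono' (Measure.restrict_mono subset_rfl Measure.restrict_le_self) le_rfl
  rw [← setLIntegral_univ, ← h3, lintegral_iUnion h1 (disjoint_disjointed _), ← lintegral_const_mul _ hf]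
  refine (ENNReal.tsum_le_tsum h5).trans ?_
  rw [← lintegral_tsum fun k => (hf.indicator (h4 k)).aemeasurable]
  refine lintegral_mono fun v => ?_
  have e1 : ∑' k, (W k).indicator f v = ∑' _ : {k | v ∈ W k}, f v := by
    rw [tsum_subtype {k | v ∈ W k} fun _ => f v]
    exact tsum_congr fun k => by by_cases hk : v ∈ W k <;> simp [hk]
  have e2 : {k | v ∈ W k}.encard ≤ b := by
    refine (encard_le_encard_of_injOn (f := fun k => (D.ch (x k)).symm v) (fun k hk => (D.isCh _).p_symm hk.1)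
      fun k hk l hl e => ?_).trans (hb v)
    by_contra hne
    have e' : (D.ch (x k)).symm v = (D.ch (x l)).symm v := e
    have g1 : (D.ch (x k)).symm v ∈ s k := hk.2
    have g2 : (D.ch (x k)).symm v ∈ s l := e' ▸ hl.2
    exact Set.disjoint_left.1 (disjoint_disjointed _ hne) g1 g2
  rw [e1, ENNReal.tsum_set_const]
  exact mul_le_mul_left ((ENat.toENNReal_le.2 e2).trans_eq (ENat.toENNReal_coe b)) _

end Dom

variable {A : Type} [CommRing A] [Algebra ℂ A] (S : Aff n M A)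

/-- Recipe: `1 + ‖p x‖² ≤ Wt x` (`z_mem`, `p_eq`), `lintegral_comp_p_le`, `integrable_rpow_neg_one_add_norm_sq`. -/
theorem Aff.int_Wt : ∃ K : ℝ, 0 ≤ K ∧ ∫⁻ x, (ENNReal.ofReal (S.Wt x ^ K))⁻¹ ∂S.μ ≠ ⊤ := by
  obtain ⟨b, hb⟩ := S.fib
  set K : ℝ := Module.finrank ℝ (E n) + 1 with hK
  have hK0 : 0 ≤ K := by positivity
  have h1 := (integrable_rpow_neg_one_add_norm_sq (E := E n) (μ := volume) (r := 2 * K)
    (by have : (0 : ℝ) ≤ Module.finrank ℝ (E n) := by positivity
        linarith)).lintegral_lt_top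
  refine ⟨K, hK0, ne_top_of_le_ne_top (ENNReal.mul_ne_top (ENNReal.natCast_ne_top b) h1.ne)
    (le_trans (lintegral_mono fun x => ?_) (Dom.lintegral_comp_p_le hb (by fun_prop)))⟩
  have h0 : 0 ≤ ∑ i, S.sq (S.w i) x := Finset.sum_nonneg fun i _ => sq_nonneg _
  have h2 : ‖S.p x‖ ≤ √(∑ i, S.sq (S.w i) x) := (pi_norm_le_iff_of_nonneg (Real.sqrt_nonneg _)).2 fun j => by
    obtain ⟨i, hi⟩ := S.z_mem j
    refine Real.le_sqrt_of_sq_le ?_
    rw [S.p_eq, ← hi]
    exact Finset.single_le_sum (f := fun i => S.sq (S.w i) x) (fun i _ => sq_nonneg _) (Finset.mem_univ i)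
  have h3 : 1 + ‖S.p x‖ ^ 2 ≤ S.Wt x := by
    have := pow_le_pow_left₀ (norm_nonneg _) h2 2
    rw [Real.sq_sqrt h0] at this
    exact add_le_add le_rfl this
  have h4 : (0 : ℝ) < 1 + ‖S.p x‖ ^ 2 := by positivity
  rw [show -(2 * K) / 2 = -K by ring, Real.rpow_neg h4.le, ENNReal.ofReal_inv_of_pos (Real.rpow_pos_of_pos h4 _)]
  exact ENNReal.inv_le_inv.2 (ENNReal.ofReal_le_ofReal (Real.rpow_le_rpow h4.le h3 hK0))

/-- Recipe: take `r ≤ 1` with `ball (p y) r ⊆ target ∩ symm ⁻¹' U`; the polydisc with radii `r exp (-θ t / 2)` for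
`j ∈ range ι` and `r` otherwise has volume `≥ (π r²)^n exp (-θ d t)` (`volume_pi_pi`, `Complex.volume_ball`);
`IsCh.meas`. -/
theorem Aff.stCo : StCo S := by
  intro d ι y θ hθ δ hδ U hU
  have h1 : (S.ch y).target ∩ (S.ch y).symm ⁻¹' U ∩ Metric.ball (S.p y) 1 ∈ 𝓝 (S.p y) :=
    inter_mem (inter_mem ((S.ch y).open_target.mem_nhds (S.ch_target y)) (S.ch_tendsto y hU))
      (Metric.ball_mem_nhds _ one_pos)
  obtain ⟨r', hr', h2⟩ := Metric.mem_nhds_iff.1 h1
  set r := min r' 1 with hr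
  have r0 : 0 < r := lt_min hr' one_pos
  refine ⟨(r ^ 2 * Real.pi) ^ n, by positivity, fun t ht => ?_⟩
  set q := Real.exp (-θ * t / 2) with hq
  have q0 : 0 < q := Real.exp_pos _
  have q1 : q ≤ 1 := Real.exp_le_one_iff.2 (by nlinarith [mul_nonneg hθ ht])
  set m : Fin n → ℕ := fun j => (Finset.univ.filter fun i => ι i = j).card with hm
  have hms : ∑ j, m j = d := by
    rw [hm, ← Finset.card_eq_sum_card_fiberwise fun i _ => Finset.mem_coe.2 (Finset.mem_univ (ι i))]
    simp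
  set W : Set (E n) := pi univ fun j => Metric.ball (S.p y j) (r * q ^ m j) with hW
  have hWm : MeasurableSet W := MeasurableSet.univ_pi fun j => Metric.isOpen_ball.measurableSet
  have hWb : W ⊆ Metric.ball (S.p y) r' := by
    rw [ball_pi _ hr']
    exact pi_mono fun j _ => Metric.ball_subset_ball
      ((mul_le_of_le_one_right r0.le (pow_le_one₀ q0.le q1)).trans (min_le_left _ _))
  have hv : volume W = ENNReal.ofReal ((r ^ 2 * Real.pi) ^ n * Real.exp (-(θ * d) * t)) := by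
    have e1 : ∀ j, volume (Metric.ball (S.p y j) (r * q ^ m j)) = ENNReal.ofReal (r ^ 2 * Real.pi * (q ^ 2) ^ m j) :=
      fun j => by
        rw [Complex.volume_ball, ← ENNReal.ofReal_pow (by positivity), ← ENNReal.ofReal_coe_nnreal,
          ← ENNReal.ofReal_mul (by positivity), NNReal.coe_real_pi]
        congr 1
        ring
    rw [hW, volume_pi_pi]
    simp only [e1]
    rw [← ENNReal.ofReal_prod_of_nonneg fun j _ => by positivity, Finset.prod_mul_distrib, Finset.prod_const,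
      Finset.prod_pow_eq_pow_sum, hms, Finset.card_univ, Fintype.card_fin, ← pow_mul, hq, ← Real.exp_nat_mul]
    congr 3
    push_cast
    ring
  refine le_trans (ENNReal.ofReal_le_ofReal (mul_le_mul_of_nonneg_left (Real.exp_le_exp.2 ?_) (by positivity)))
    (hv.ge.trans (((S.isCh y).meas hWm fun v hv => (h2 (hWb hv)).1.1).ge.trans (measure_mono fun x hx => ⟨?_, ?_⟩)))
  · nlinarith [mul_nonneg hδ.le ht]
  · have := (h2 (hWb hx.1)).1.2
    rwa [mem_preimage, (S.isCh y).symm_p hx.2] at this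
  · intro i _
    have h3 : dist (S.p x (ι i)) (S.p y (ι i)) < r * q ^ m (ι i) := hx.1 (ι i) (mem_univ _)
    have h4 : m (ι i) ≠ 0 := Finset.card_ne_zero.2 ⟨i, by simp⟩
    have h5 : r * q ^ m (ι i) ≤ q :=
      (mul_le_of_le_one_left (by positivity) (min_le_right _ _)).trans (pow_le_of_le_one q0.le q1 h4)
    have h6 := pow_lt_pow_left₀ (h3.trans_le h5) dist_nonneg two_ne_zero
    rw [hq, ← Real.exp_nat_mul, dist_eq_norm] at h6
    simp only [Aff.sq, map_sub, AlgHom.commutes, Algebra.algebraMap_self, RingHom.id_apply, ← S.p_eq]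
    refine h6.trans_eq (congrArg Real.exp ?_)
    push_cast
    ring

end Crest.Agent.R271
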