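import Crest.Agent.R271.G.Vol
import Crest.Agent.R271.G.Rate

/-! # Row 271, block G: sum of valuations -/

set_option autoImplicit false
set_option linter.unusedSectionVars false

open MeasureTheory Filter Topology Set
open scoped ENNReal ContDiff

noncomputable section

namespace Crest.Agent.R271

variable {n : ℕ} {M : Type} [TopologicalSpace M] [T2Space M] [SecondCountableTopology M]
  [MeasurableSpace M] [BorelSpace M] {A : Type} [CommRing A] [Algebra ℂ A] {S : Aff n M A}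

/-- Guan-Zhou twice.  Recipe: `gz_ext` with `g₀ (1 + Gb)^K` and `Ga`, `Ext.mono`, `gz_ext` with `g₀ Λ`, `Gb` and the
exponent `K + K₁`. -/
theorem gz_twice (H : HD S.toDom) {ε K K₁ : ℝ} (hε : 0 < ε) (hK : 0 ≤ K) (hK₁ : 0 ≤ K₁) : ∃ C : ℝ≥0∞, C ≠ ⊤ ∧
    ∀ (g₀ Ga Gb Λ : M → ℝ) (y : M) (B : ℝ≥0∞), S.LP g₀ → S.LP Ga → S.LP Gb → S.LP Λ → S.Sing Ga y → S.Sing Gb y →
      (∀ x, (1 + Ga x) ^ (1 + ε) ≤ Λ x * (1 + Gb x) ^ K₁) →
      S.Ext (fun x => g₀ x * ((1 + Ga x) ^ K * (1 + Gb x) ^ K)) y B →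
      S.Ext (fun x => g₀ x * (Λ x * (1 + Gb x) ^ (1 + ε))) y (C * B) := by
  obtain ⟨C₁, c1, h1⟩ := H.gz_ext hε hK
  obtain ⟨C₂, c2, h2⟩ := H.gz_ext hε (add_nonneg hK hK₁)
  refine ⟨C₂ * C₁, ENNReal.mul_ne_top c2 c1, fun g₀ Ga Gb Λ y B hg ha hb hΛ sa sb hle hE => ?_⟩
  have p1 : ∀ x, 0 < 1 + Gb x := fun x => add_pos_of_pos_of_nonneg one_pos (hb.nonneg x)
  have a1 := h1 (fun x => g₀ x * (1 + Gb x) ^ K) Ga y B (hg.mul (((Dom.lp_const zero_le_one).add hb).rpow hK)) ha sa
    (hE.mono fun x => le_of_eq (by ring))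
  have a2 := h2 (fun x => g₀ x * Λ x) Gb y _ (hg.mul hΛ) hb sb (a1.mono fun x => by
    refine (mul_le_mul_of_nonneg_left (hle x) (mul_nonneg (hg.nonneg x) (Real.rpow_nonneg (p1 x).le _))).trans
      (le_of_eq ?_)
    rw [Real.rpow_add (p1 x)]
    ring)
  rw [mul_assoc]
  exact a2.mono fun x => le_of_eq (by ring)

theorem sum_low {t ε p q s : ℝ} (ht : 0 ≤ t) (hε : 0 < ε) (hp : 0 ≤ p) (hq : 0 ≤ q) (h : Real.exp (-t) ≤ s) :
    Real.exp (q * t) ≤ (1 + (Real.exp ((1 + ε) * t) * s) ^ (p + ε)) ^ (q / ε ^ 2) := by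
  have h1 : Real.exp (ε * t) ≤ Real.exp ((1 + ε) * t) * s := by
    have := mul_le_mul_of_nonneg_left h (Real.exp_pos ((1 + ε) * t)).le
    rwa [← Real.exp_add, show (1 + ε) * t + -t = ε * t by ring] at this
  calc _ = (Real.exp (ε * t) ^ ε) ^ (q / ε ^ 2) := by
        rw [← Real.exp_mul, ← Real.exp_mul]
        congr 1
        field_simp
    _ ≤ _ := Real.rpow_le_rpow (by positivity) (le_add_of_nonneg_of_le zero_le_one
        ((Real.rpow_le_rpow_of_exponent_le (Real.one_le_exp (by positivity)) (by linarith)).trans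
          (Real.rpow_le_rpow (by positivity) h1 (by positivity)))) (by positivity)

theorem sum_up {s X p σ : ℝ} (hs : 0 ≤ s) (h : s ≤ X) (hX : 1 ≤ X) (hp : 0 ≤ p) (hσ : 0 ≤ σ) :
    (1 + s ^ p) ^ σ ≤ 2 ^ σ * X ^ (p * σ) := by
  rw [Real.rpow_mul (by linarith), ← Real.mul_rpow zero_le_two (by positivity)]
  refine Real.rpow_le_rpow (by positivity) ?_ hσ
  linarith [Real.one_le_rpow hX hp, Real.rpow_le_rpow hs h hp]

theorem exp_le_rpow_inv {t a h : ℝ} (ha : 0 < a) (H : Real.exp (-a * t) ≤ h) : Real.exp (-t) ≤ h ^ a⁻¹ := by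
  refine le_trans (le_of_eq ?_) (Real.rpow_le_rpow (Real.exp_pos _).le H (inv_pos.2 ha).le)
  rw [← Real.exp_mul]
  congr 1
  field_simp

/-- Recipe: `σ = 1 + ε`, `γ = σ² (α + β + 2 ε) < α + β + δ`, `δ' = α + β + δ - γ`; shrink `U` so that all `h i ≤ B₀`.
`sa = ∑_{a i>0} h i ^ (a i)⁻¹`, `sb` likewise, `s' = ∑_{a i>0} (e^(b i t) h i) ^ (a i)⁻¹ ≤ C_t sa`;
`Ga = (e^(σ t) s')^(α+ε)`, `Gb = (e^(σ t) sb)^(β+ε)` are `LP` and singular at `y` (`sing_of_rateG`, `Sing.mono`).
Outside the polyhedron of `a + b` one of `Ga, Gb` is `≥ e^(ε² t)`; take `K ε² = γ + δ' + 1`.  Each term of `s'` is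
`≤ (1 + Gb)^K₀ (1 + sa)`, `K₀ = ∑_{a i>0} b i / (a i (β+ε))`; so
`Λ = (2 (e^(σ t) (card ι + 1) (1 + sa))^(α+ε))^σ`, `K₁ = K₀ (α+ε) σ`.  Apply `vol_master` with
`Γ₁ = (1+Ga)^K (1+Gb)^K`, `Γ₂ = Λ (1+Gb)^σ`, `gz_twice`. -/
theorem stSum (H : HD S.toDom) : StSum S := by
  intro ι _ h a b y α β hh _ ha hb hα hβ Ra Rb δ hδ U hU
  obtain ⟨ε, hε, hγ⟩ : ∃ ε : ℝ, 0 < ε ∧ (1 + ε) * (1 + ε) * (α + β + 2 * ε) < α + β + δ := by
    have c : Continuous fun ε : ℝ => (1 + ε) * (1 + ε) * (α + β + 2 * ε) := by fun_prop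
    have := (c.tendsto 0).eventually_lt_const (u := α + β + δ) (by simpa using hδ)
    exact (eventually_mem_nhdsWithin.and (this.filter_mono nhdsWithin_le_nhds (f₁ := 𝓝[>] 0))).exists
  have h0 := fun i => (hh i).nonneg
  let sa : M → ℝ := fun x => ∑ i with 0 < a i, h i x ^ (a i)⁻¹
  let sb : M → ℝ := fun x => ∑ i with 0 < b i, h i x ^ (b i)⁻¹
  have la : S.LP sa := Dom.lp_sum fun i _ => (hh i).rpow (inv_nonneg.2 (ha i))
  have lb : S.LP sb := Dom.lp_sum fun i _ => (hh i).rpow (inv_nonneg.2 (hb i))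
  have a0 := la.nonneg
  have b0 := lb.nonneg
  set K₀ := ∑ i, b i / (a i * (β + ε)) with hK₀
  have k0 : ∀ i, 0 ≤ b i / (a i * (β + ε)) := fun i => div_nonneg (hb i) (mul_nonneg (ha i) (by positivity))
  have K0 : 0 ≤ K₀ := Finset.sum_nonneg fun i _ => k0 i
  obtain ⟨C, hC, hG⟩ := gz_twice H (K := (α + β + δ + 1) / ε ^ 2) (K₁ := K₀ * ((α + ε) * (1 + ε))) hε
    (by positivity) (by positivity)
  set N : ℝ := Fintype.card ι + 1 with hN
  have N1 : 1 ≤ N := le_add_of_nonneg_left (Nat.cast_nonneg _)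
  set A := sa y + 1
  set B := sb y + 1
  have A0 : 0 < A := add_pos_of_nonneg_of_pos (a0 y) one_pos
  have B0 : 0 < B := add_pos_of_nonneg_of_pos (b0 y) one_pos
  obtain ⟨V, hV, c, hc, hv⟩ := vol_master H (U := U ∩ ({x | sa x < A} ∩ {x | sb x < B}))
    (inter_mem hU (inter_mem (la.1.continuousAt.eventually_lt continuousAt_const (lt_add_one _))
      (lb.1.continuousAt.eventually_lt continuousAt_const (lt_add_one _))))
    (γ := (1 + ε) * (1 + ε) * (α + β + 2 * ε)) (δ := α + β + δ - (1 + ε) * (1 + ε) * (α + β + 2 * ε))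
    (L := 2 ^ (1 + ε) * (N * (1 + A)) ^ ((α + ε) * (1 + ε)) * (2 ^ (1 + ε) * (1 + B) ^ ((β + ε) * (1 + ε))))
    (by positivity) (by linarith) (by positivity) hC
  refine ⟨c, hc, fun t ht => ?_⟩
  have := hv y (mem_of_mem_nhds hV) (fun t => {x | ∀ i, 0 < (a + b) i → h i x < Real.exp (-(a + b) i * t)})
    (fun s t hst x hx i hi => (hx i hi).trans_le (Real.exp_le_exp.2 (by nlinarith))) (fun t ht => ?_) t ht
  · rw [add_sub_cancel] at this
    exact this.trans (measure_mono (inter_subset_inter_left _ inter_subset_left))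
  rw [add_sub_cancel]
  set e := Real.exp ((1 + ε) * t) with he
  have e1 : 1 ≤ e := Real.one_le_exp (by positivity)
  have e0 : 0 < e := by linarith
  let s' : M → ℝ := fun x => ∑ i with 0 < a i, (Real.exp (b i * t) * h i x) ^ (a i)⁻¹
  have l' : S.LP s' := Dom.lp_sum fun i _ =>
    ((Dom.lp_const (Real.exp_pos _).le).mul (hh i)).rpow (inv_nonneg.2 (ha i))
  have s0 := l'.nonneg
  let Ga : M → ℝ := fun x => (e * s' x) ^ (α + ε)
  let Gb : M → ℝ := fun x => (e * sb x) ^ (β + ε)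
  have lGa : S.LP Ga := ((Dom.lp_const e0.le).mul l').rpow (by positivity)
  have lGb : S.LP Gb := ((Dom.lp_const e0.le).mul lb).rpow (by positivity)
  have p1 : ∀ x, 1 ≤ 1 + Ga x := fun x => le_add_of_nonneg_right (lGa.nonneg x)
  have p2 : ∀ x, 1 ≤ 1 + Gb x := fun x => le_add_of_nonneg_right (lGb.nonneg x)
  let Λ : M → ℝ := fun x => 2 ^ (1 + ε) * (e * N * (1 + sa x)) ^ ((α + ε) * (1 + ε))
  have lΛ : S.LP Λ := (Dom.lp_const (by positivity)).mul (((Dom.lp_const (by positivity)).mul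
    ((Dom.lp_const zero_le_one).add la)).rpow (by positivity))
  have q0 : 0 ≤ (α + β + δ + 1) / ε ^ 2 := by positivity
  refine ⟨fun x => (1 + Ga x) ^ ((α + β + δ + 1) / ε ^ 2) * (1 + Gb x) ^ ((α + β + δ + 1) / ε ^ 2),
    fun x => Λ x * (1 + Gb x) ^ (1 + ε),
    fun x => one_le_mul_of_one_le_of_one_le (Real.one_le_rpow (p1 x) q0) (Real.one_le_rpow (p2 x) q0),
    fun x _ hx => ?_, fun x hx => ?_, fun g₀ B hg => hG g₀ Ga Gb Λ y B hg lGa lGb lΛ ?_ ?_ fun x => ?_⟩
  · simp only [mem_ofPred_eq, not_forall, not_lt, Pi.add_apply] at hx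
    obtain ⟨i, h1, h2⟩ := hx
    rcases (ha i).eq_or_lt with c | c
    · rw [← c, zero_add] at h1 h2
      refine (sum_low ht hε hβ (by positivity) ((exp_le_rpow_inv h1 h2).trans ?_)).trans
        (le_mul_of_one_le_left (by positivity [p2 x]) (Real.one_le_rpow (p1 x) q0))
      exact Finset.single_le_sum (f := fun i => h i x ^ (b i)⁻¹) (fun i _ => Real.rpow_nonneg (h0 i x) _)
        (by simpa using h1)
    · refine (sum_low ht hε hα (by positivity) ((exp_le_rpow_inv (h := Real.exp (b i * t) * h i x) c ?_).trans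
        ?_)).trans (le_mul_of_one_le_right (by positivity [p1 x]) (Real.one_le_rpow (p2 x) q0))
      · refine le_trans (le_of_eq ?_) (mul_le_mul_of_nonneg_left h2 (Real.exp_pos _).le)
        rw [← Real.exp_add]
        congr 1
        ring
      · exact Finset.single_le_sum (f := fun i => (Real.exp (b i * t) * h i x) ^ (a i)⁻¹)
          (fun i _ => Real.rpow_nonneg (mul_nonneg (Real.exp_pos _).le (h0 i x)) _) (by simpa using c)
  · have u1 : sa x ≤ A := le_of_lt hx.2.1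
    have u2 : sb x ≤ B := le_of_lt hx.2.2
    have := a0 x
    calc Λ x * (1 + Gb x) ^ (1 + ε) ≤ 2 ^ (1 + ε) * (e * N * (1 + A)) ^ ((α + ε) * (1 + ε)) *
          (2 ^ (1 + ε) * (e * (1 + B)) ^ ((β + ε) * (1 + ε))) :=
          mul_le_mul (by simp only [Λ]; gcongr) (sum_up (mul_nonneg e0.le (b0 x)) (by gcongr; linarith)
            (one_le_mul_of_one_le_of_one_le e1 (by linarith)) (by positivity) (by positivity))
            (Real.rpow_nonneg (by linarith [p2 x]) _) (by positivity)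
      _ = _ := by
          rw [mul_assoc e, Real.mul_rpow e0.le (by positivity), Real.mul_rpow e0.le (by positivity), he,
            ← Real.exp_mul, ← Real.exp_mul, show (1 + ε) * (1 + ε) * (α + β + 2 * ε) * t =
              (1 + ε) * t * ((α + ε) * (1 + ε)) + (1 + ε) * t * ((β + ε) * (1 + ε)) by ring, Real.exp_add]
          ring
  · set R := 1 + ∑ i, Real.exp (b i * t) ^ (a i)⁻¹
    have R0 : 0 < R := by positivity
    refine (sing_of_rateG hh hα Ra hε).mono (C := (e * R) ^ (α + ε)) (by positivity) (Eventually.of_forall fun x => ?_)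
    rw [← Real.mul_rpow (by positivity) (a0 x), mul_assoc]
    refine Real.rpow_le_rpow (mul_nonneg e0.le (s0 x)) (mul_le_mul_of_nonneg_left ?_ e0.le) (by positivity)
    rw [Finset.mul_sum]
    refine Finset.sum_le_sum fun i _ => ?_
    rw [Real.mul_rpow (Real.exp_pos _).le (h0 i x)]
    refine mul_le_mul_of_nonneg_right (le_add_of_nonneg_of_le zero_le_one ?_) (Real.rpow_nonneg (h0 i x) _)
    exact Finset.single_le_sum (f := fun i => Real.exp (b i * t) ^ (a i)⁻¹) (fun i _ => by positivity)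
      (Finset.mem_univ i)
  · exact (sing_of_rateG hh hβ Rb hε).mono (C := e ^ (β + ε)) (by positivity)
      (Eventually.of_forall fun x => (Real.mul_rpow e0.le (b0 x)).le)
  · have y1 : 1 ≤ (1 + Gb x) ^ K₀ := Real.one_le_rpow (p2 x) K0
    have y2 : 1 ≤ 1 + sa x := le_add_of_nonneg_right (a0 x)
    have key : s' x ≤ N * (1 + sa x) * (1 + Gb x) ^ K₀ := by
      refine (Finset.sum_le_card_nsmul _ _ ((1 + sa x) * (1 + Gb x) ^ K₀) fun i hi => ?_).trans ?_
      · have hi' : 0 < a i := by simpa using hi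
        rcases (hb i).eq_or_lt with c | c
        · rw [← c, zero_mul, Real.exp_zero, one_mul]
          refine le_trans (le_add_of_nonneg_of_le zero_le_one ?_) (le_mul_of_one_le_right (by linarith) y1)
          exact Finset.single_le_sum (f := fun i => h i x ^ (a i)⁻¹) (fun i _ => Real.rpow_nonneg (h0 i x) _) hi
        · refine le_trans ?_ (le_mul_of_one_le_left (by linarith) y2)
          have z1 : h i x ^ (b i)⁻¹ ≤ sb x := Finset.single_le_sum (f := fun i => h i x ^ (b i)⁻¹)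
            (fun i _ => Real.rpow_nonneg (h0 i x) _) (by simpa using c)
          have z2 : Real.exp t ≤ e := Real.exp_le_exp.2 (by nlinarith)
          have z0 := Real.rpow_nonneg (h0 i x) (b i)⁻¹
          calc _ = ((Real.exp t * h i x ^ (b i)⁻¹) ^ (β + ε)) ^ (b i / (a i * (β + ε))) := by
                rw [← Real.rpow_mul (by positivity), show (β + ε) * (b i / (a i * (β + ε))) = b i * (a i)⁻¹ by
                  field_simp, Real.rpow_mul (by positivity), Real.mul_rpow (by positivity) z0,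
                  Real.rpow_inv_rpow (h0 i x) c.ne', ← Real.exp_mul, mul_comm t]
            _ ≤ (1 + Gb x) ^ (b i / (a i * (β + ε))) := Real.rpow_le_rpow (by positivity)
                (le_add_of_nonneg_of_le zero_le_one (Real.rpow_le_rpow (by positivity)
                  (mul_le_mul z2 z1 z0 e0.le) (by positivity))) (k0 i)
            _ ≤ _ := Real.rpow_le_rpow_of_exponent_le (p2 x)
                (Finset.single_le_sum (fun i _ => k0 i) (Finset.mem_univ i))
      · rw [nsmul_eq_mul, mul_assoc]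
        refine mul_le_mul_of_nonneg_right ?_ (by positivity)
        exact (Nat.cast_le.2 (Finset.card_le_univ _)).trans (le_add_of_nonneg_right zero_le_one)
    refine (sum_up (X := e * N * (1 + sa x) * (1 + Gb x) ^ K₀) (mul_nonneg e0.le (s0 x))
      ((mul_le_mul_of_nonneg_left key e0.le).trans_eq (by ring))
      (one_le_mul_of_one_le_of_one_le (one_le_mul_of_one_le_of_one_le (one_le_mul_of_one_le_of_one_le e1 N1) y2) y1)
      (by positivity) (by positivity)).trans_eq ?_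
    rw [Real.mul_rpow (by positivity) (by positivity), ← Real.rpow_mul (by linarith [p2 x]), ← mul_assoc]

end Crest.Agent.R271
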