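import Crest.Agent.R271.G.GZ

/-! # Row 271, block G: lower bounds for volumes -/

set_option autoImplicit false
set_option linter.unusedSectionVars false

open MeasureTheory Filter Topology Set
open scoped ENNReal ContDiff

noncomputable section

namespace Crest.Agent.R271

variable {n : ℕ} {M : Type} [TopologicalSpace M] [T2Space M] [SecondCountableTopology M]
  [MeasurableSpace M] [BorelSpace M] {A : Type} [CommRing A] [Algebra ℂ A] {S : Aff n M A}

theorem vol_master (H : HD S.toDom) {y₀ : M} {U : Set M} (hU : U ∈ 𝓝 y₀) {γ δ L : ℝ} (hγ : 0 ≤ γ) (hδ : 0 < δ)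
    (hL : 0 < L) {C : ℝ≥0∞} (hC : C ≠ ⊤) : ∃ V ∈ 𝓝 y₀, ∃ c : ℝ, 0 < c ∧ ∀ y ∈ V, ∀ P : ℝ → Set M, Antitone P →
      (∀ t, 0 ≤ t → ∃ Γ₁ Γ₂ : M → ℝ, (∀ x, 1 ≤ Γ₁ x) ∧ (∀ x ∈ U, x ∉ P t → Real.exp ((γ + δ + 1) * t) ≤ Γ₁ x) ∧
        (∀ x ∈ U, Γ₂ x ≤ L * Real.exp (γ * t)) ∧ ∀ (g₀ : M → ℝ) (B : ℝ≥0∞), S.LP g₀ →
          S.Ext (fun x => g₀ x * Γ₁ x) y B → S.Ext (fun x => g₀ x * Γ₂ x) y (C * B)) →
      ∀ t, 0 ≤ t → ENNReal.ofReal (c * Real.exp (-(γ + δ) * t)) ≤ S.μ (U ∩ P t) := by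
  obtain ⟨r, hr, hrU⟩ := S.dist2_nhds hU
  obtain ⟨K₀, hK₀, hI⟩ := S.int_Wt
  set I := ∫⁻ x, (ENNReal.ofReal (S.Wt x ^ K₀))⁻¹ ∂S.μ
  set l := γ + δ + 1 with hl
  have l2 : 0 < Real.log 2 := Real.log_pos one_lt_two
  have l3 : Real.log 2 ≤ 1 := by linarith [Real.log_two_lt_d9]
  set K := l / Real.log 2 with hK
  have K1 : l ≤ K := le_div_self (by linarith) l2 l3
  have K0 : 0 < K := by linarith
  have cW := S.lp_Wt.1
  have cN := (S.lp_dist2 y₀).1
  have N0 := (S.lp_dist2 y₀).nonneg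
  have W1 := S.one_le_Wt
  set W₀ := S.Wt y₀ + 1
  let U' := {x | r⁻¹ * S.dist2 y₀ x < δ / (2 * K)} ∩ {x | S.Wt x < W₀}
  have ho : IsOpen U' := (isOpen_lt (by fun_prop) continuous_const).inter (isOpen_lt cW continuous_const)
  have hU' : U' ⊆ U := fun x hx => hrU (by
    have h1 : r⁻¹ * S.dist2 y₀ x ≤ 1 := (le_of_lt hx.1).trans ((div_le_one (by positivity)).2 (by linarith))
    rwa [inv_mul_le_iff₀ hr, mul_one] at h1)
  obtain ⟨V, hV, Cm, hm⟩ := H.mv y₀ U' ho ⟨show r⁻¹ * S.dist2 y₀ y₀ < δ / (2 * K) by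
    rw [S.dist2_self, mul_zero]; positivity, lt_add_one (S.Wt y₀)⟩
  have W0 : 0 < W₀ ^ K₀ := Real.rpow_pos_of_pos (by linarith [W1 y₀]) _
  set a := Cm ^ 2 * (W₀ ^ K₀ * L) * C.toReal + 1 with ha
  have a0 : 0 < a := by positivity
  obtain ⟨t₀, ht₀, ht₁⟩ : ∃ t₀ : ℝ, 0 ≤ t₀ ∧ 2 * a * I.toReal ≤ Real.exp t₀ :=
    ⟨2 * a * I.toReal, by positivity, by linarith [Real.add_one_le_exp (2 * a * I.toReal)]⟩
  refine ⟨V, hV, (2 * a)⁻¹ * Real.exp (-(γ + δ) * t₀), by positivity, fun y hy P hP h t' ht' => ?_⟩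
  refine le_trans ?_ (measure_mono (inter_subset_inter_right U (hP (le_add_of_nonneg_right ht₀))))
  rw [mul_assoc, ← Real.exp_add, ← mul_add, add_comm t₀]
  have ht : t₀ ≤ t' + t₀ := le_add_of_nonneg_left ht'
  generalize t' + t₀ = t at ht
  have t0 := ht₀.trans ht
  by_cases hf : S.μ (U ∩ P t) = ⊤
  · simp [hf]
  obtain ⟨Γ₁, Γ₂, h1, h2, h3, h4⟩ := h t t0
  have b1 : ∀ x, 1 ≤ (1 + r⁻¹ * S.dist2 y₀ x) ^ (K * t) := fun x =>
    Real.one_le_rpow (le_add_of_nonneg_right (mul_nonneg (inv_pos.2 hr).le (N0 x))) (by positivity)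
  have b0 : ∀ x, 1 ≤ S.Wt x ^ K₀ := fun x => Real.one_le_rpow (W1 x) hK₀
  obtain ⟨F, hF, hy1, hN⟩ := h4 (fun x => S.Wt x ^ K₀ * (1 + r⁻¹ * S.dist2 y₀ x) ^ (K * t))
    (S.μ (U ∩ P t) + ENNReal.ofReal (Real.exp (-(l * t))) * I)
    ((S.lp_Wt.rpow hK₀).mul (((Dom.lp_const zero_le_one).add ((Dom.lp_const (inv_pos.2 hr).le).mul
      (S.lp_dist2 y₀))).rpow (by positivity))) ⟨fun _ => 1, Dom.hol_const 1, rfl, by
    rw [← lintegral_const_mul' _ _ ENNReal.ofReal_ne_top]
    refine le_trans (lintegral_mono fun x => ?_) ((lintegral_add_right ((U ∩ P t).indicator 1)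
      (by fun_prop)).trans_le (add_le_add_left (lintegral_indicator_one_le _) _))
    simp only [norm_one, one_pow, ENNReal.ofReal_one, one_mul]
    by_cases c : x ∈ U ∩ P t
    · rw [indicator_of_mem c]
      refine le_add_right (ENNReal.inv_le_one.2 (ENNReal.one_le_ofReal.2 ?_))
      exact one_le_mul_of_one_le_of_one_le (one_le_mul_of_one_le_of_one_le (b0 x) (b1 x)) (h1 x)
    refine le_add_left (le_trans (ENNReal.inv_le_inv.2 (ENNReal.ofReal_le_ofReal
      (p := Real.exp (l * t) * S.Wt x ^ K₀) ?_)) (inv_le_mul_inv (Real.exp_pos _) (le_of_eq ?_)))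
    · rw [mul_comm, mul_assoc]
      refine mul_le_mul_of_nonneg_left ?_ (by linarith [b0 x])
      by_cases cU : x ∈ U
      · exact (h2 x cU fun hx => c ⟨cU, hx⟩).trans (le_mul_of_one_le_left (by linarith [h1 x]) (b1 x))
      · refine le_trans ?_ (le_mul_of_one_le_right (by linarith [b1 x]) (h1 x))
        have e1 : 1 ≤ r⁻¹ * S.dist2 y₀ x := by
          rw [le_inv_mul_iff₀ hr, mul_one]
          exact (not_le.1 fun h => cU (hrU h)).le
        calc Real.exp (l * t) = (2 : ℝ) ^ (K * t) := by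
              rw [Real.rpow_def_of_pos two_pos, hK]
              congr 1
              field_simp
          _ ≤ _ := Real.rpow_le_rpow zero_le_two (by linarith) (by positivity)
    · rw [← mul_assoc, ← Real.exp_add]
      simp⟩
  set m := (S.μ (U ∩ P t)).toReal
  set Λ := W₀ ^ K₀ * Real.exp (δ / 2 * t) * (L * Real.exp (γ * t)) with hΛ
  have Λ0 : 0 < Λ := by positivity
  have m0 : 0 ≤ m := ENNReal.toReal_nonneg
  have hb := (hm F (√(Λ * (C.toReal * (m + Real.exp (-(l * t)) * I.toReal)))) (fun x _ => hF x trivial)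
    (Real.sqrt_nonneg _) (by
      rw [Real.sq_sqrt (by positivity), ENNReal.ofReal_mul Λ0.le, ENNReal.ofReal_mul ENNReal.toReal_nonneg,
        ENNReal.ofReal_add m0 (by positivity), ENNReal.ofReal_mul (Real.exp_pos _).le, ENNReal.ofReal_toReal hC,
        ENNReal.ofReal_toReal hf, ENNReal.ofReal_toReal hI]
      refine le_trans ?_ (mul_le_mul_right hN _)
      rw [Dom.Nm, ← lintegral_const_mul' _ _ ENNReal.ofReal_ne_top]
      refine (setLIntegral_mono' ho.measurableSet fun x hx => ?_).trans (setLIntegral_le_lintegral U' _)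
      rw [mul_left_comm]
      refine le_mul_of_one_le_right' (le_trans (by simp) (inv_le_mul_inv (b := 1) Λ0 ?_))
      rw [mul_one]
      refine (mul_le_mul_of_nonneg_left (h3 x (hU' hx)) (by nlinarith [b0 x, b1 x])).trans
        (mul_le_mul_of_nonneg_right (mul_le_mul (Real.rpow_le_rpow (by linarith [W1 x]) (le_of_lt hx.2) hK₀) ?_
          (by linarith [b1 x]) W0.le) (by positivity))
      calc _ ≤ Real.exp (δ / (2 * K)) ^ (K * t) := Real.rpow_le_rpow
            (add_nonneg zero_le_one (mul_nonneg (inv_pos.2 hr).le (N0 x)))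
            (by linarith [Real.add_one_le_exp (δ / (2 * K)), (show r⁻¹ * S.dist2 y₀ x < δ / (2 * K) from hx.1)])
            (by positivity)
        _ = _ := by
          rw [← Real.exp_mul]
          congr 1
          field_simp) y hy).1
  rw [hy1, norm_one] at hb
  have hb2 := pow_le_pow_left₀ zero_le_one hb 2
  rw [one_pow, mul_pow, Real.sq_sqrt (by positivity)] at hb2
  rw [← ENNReal.ofReal_toReal hf]
  refine ENNReal.ofReal_le_ofReal ?_
  change _ ≤ m
  set E := Real.exp (-(γ + δ) * t)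
  have e1 : Real.exp (δ / 2 * t) * Real.exp (γ * t) * E ≤ 1 := by
    rw [← Real.exp_add, ← Real.exp_add]
    exact Real.exp_le_one_iff.2 (by nlinarith)
  have e2 : Real.exp (-(l * t)) * Real.exp t₀ ≤ E := by
    rw [← Real.exp_add]
    exact Real.exp_le_exp.2 (by rw [hl]; linarith)
  have E0 : 0 < E := Real.exp_pos _
  have e3 : E ≤ a * (m + Real.exp (-(l * t)) * I.toReal) := by
    set X := m + Real.exp (-(l * t)) * I.toReal
    have X0 : 0 ≤ X := by positivity
    calc E ≤ Cm ^ 2 * (Λ * (C.toReal * X)) * E := le_mul_of_one_le_left E0.le hb2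
      _ = (Cm ^ 2 * (W₀ ^ K₀ * L) * C.toReal * X) * (Real.exp (δ / 2 * t) * Real.exp (γ * t) * E) := by
        rw [hΛ]; ring
      _ ≤ Cm ^ 2 * (W₀ ^ K₀ * L) * C.toReal * X := mul_le_of_le_one_right (by positivity) e1
      _ ≤ a * X := by rw [ha]; linarith
  rw [inv_mul_le_iff₀ (by positivity)]
  nlinarith [mul_le_mul_of_nonneg_left ht₁ (Real.exp_pos (-(l * t))).le]

theorem stVol (H : HD S.toDom) : StVol S := by
  intro y₀ U hU B δ hδ
  obtain ⟨ε, hε, hε'⟩ : ∃ ε : ℝ, 0 < ε ∧ (1 + ε) * (1 + ε) < 1 + δ :=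
    ⟨min δ 1 / 4, by positivity, by nlinarith [min_le_left δ 1, min_le_right δ 1, lt_min hδ one_pos]⟩
  obtain ⟨C, hC, hG⟩ := H.gz_ext (K := (δ + 2) / ε) hε (by positivity)
  obtain ⟨V, hV, c, hc, h⟩ := vol_master H hU (γ := (1 + ε) * (1 + ε)) (δ := 1 + δ - (1 + ε) * (1 + ε))
    (L := (1 + |B|) ^ (1 + ε)) (by positivity) (by linarith) (by positivity) hC
  refine ⟨V, hV, c, hc, fun g hg hB y hy hS t ht => ?_⟩
  have := h y hy (fun t => {x | g x < Real.exp (-t)})
    (fun s t hst x hx => lt_of_lt_of_le hx (Real.exp_le_exp.2 (neg_le_neg hst))) (fun t ht => ?_) t ht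
  · rwa [add_sub_cancel] at this
  have g0 := hg.nonneg
  have e0 := Real.exp_pos ((1 + ε) * t)
  refine ⟨fun x => (1 + Real.exp ((1 + ε) * t) * g x) ^ ((δ + 2) / ε),
    fun x => (1 + Real.exp ((1 + ε) * t) * g x) ^ (1 + ε),
    fun x => Real.one_le_rpow (le_add_of_nonneg_right (mul_nonneg e0.le (g0 x))) (by positivity),
    fun x _ hx => ?_, fun x hx => ?_, fun g₀ B hg₀ => hG g₀ _ y B hg₀ ((Dom.lp_const e0.le).mul hg)
      (hS.mono e0 (Eventually.of_forall fun _ => le_rfl))⟩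
  · calc _ = Real.exp (ε * t) ^ ((δ + 2) / ε) := by
          rw [← Real.exp_mul]
          congr 1
          field_simp
          ring
      _ ≤ _ := Real.rpow_le_rpow (Real.exp_pos _).le (by
          have := mul_le_mul_of_nonneg_left (not_lt.1 hx) e0.le
          rw [← Real.exp_add, show (1 + ε) * t + -t = ε * t by ring] at this
          linarith) (by positivity)
  · calc _ ≤ ((1 + |B|) * Real.exp ((1 + ε) * t)) ^ (1 + ε) :=
          Real.rpow_le_rpow (add_nonneg zero_le_one (mul_nonneg e0.le (g0 x))) (by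
            nlinarith [Real.one_le_exp (show 0 ≤ (1 + ε) * t by positivity), (hB x hx).trans (le_abs_self B)])
            (by positivity)
      _ = _ := by
          rw [Real.mul_rpow (by positivity) e0.le, ← Real.exp_mul]
          congr 2
          ring

end Crest.Agent.R271
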